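import Mathlib

set_option autoImplicit false

namespace Crest.Agent.Helper7.Cover

/-- shear parameter of the explicit cover -/
noncomputable def cc : ℝ := 1 / 1000
/-- angular mesh -/
noncomputable def dd : ℝ := 1 / 2000000
/-- height slack -/
noncomputable def ee : ℝ := 1 / 200
/-- number of sectors of each of the two families -/
def NN : ℕ := 4000000

/-- grid points `t_i = -1 + i δ` -/
noncomputable def tt (i : ℕ) : ℝ := -1 + (i : ℝ) * dd
/-- midpoints -/
noncomputable def tau (i : ℕ) : ℝ := tt i + dd / 2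
/-- `A_i = (1 + t_i t_{i+1}) / 2` -/
noncomputable def AA (i : ℕ) : ℝ := (1 + tt i * tt (i + 1)) / 2
/-- heights `R_i` -/
noncomputable def RR (i : ℕ) : ℝ := 1 / 2 + cc ^ 2 * ((tau i ^ 2 + tau i ^ 4) / 4 + ee)
/-- `‖d_i‖² - 1` for the axis direction `d_i = (1, c A_i, √2 c τ_i)` -/
noncomputable def ww (i : ℕ) : ℝ := cc ^ 2 * AA i ^ 2 + 2 * cc ^ 2 * tau i ^ 2

/-- lower-family membership condition for the point `(x, y, √2 s)` and sector `i` -/
def LowerCond (i : ℕ) (x y s : ℝ) : Prop :=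
  0 ≤ s - cc * x * tau i ∧ s - cc * x * tau i ≤ RR i ∧
    tt i * (s - cc * x * tau i) ≤ y - cc * x * AA i ∧
    y - cc * x * AA i ≤ tt (i + 1) * (s - cc * x * tau i)

/-- upper-family membership condition for the point `(x, y, √2 s)` and sector `j` -/
def UpperCond (j : ℕ) (x y s : ℝ) : Prop :=
  0 ≤ 1 - s + cc * y * tau j ∧ 1 - s + cc * y * tau j ≤ RR j ∧
    tt j * (1 - s + cc * y * tau j) ≤ x + cc * y * AA j ∧
    x + cc * y * AA j ≤ tt (j + 1) * (1 - s + cc * y * tau j)

end Crest.Agent.Helper7.Cover
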