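import Mathlib

set_option autoImplicit false
set_option linter.unusedSectionVars false
set_option linter.unusedVariables false

open MeasureTheory
open scoped ENNReal NNReal

namespace Crest.Agent.Helper7

abbrev E3 := EuclideanSpace ℝ (Fin 3)
abbrev E2 := EuclideanSpace ℝ (Fin 2)

/-- Gram determinant of two vectors. -/
noncomputable def gram (a b : E3) : ℝ := ‖a‖ ^ 2 * ‖b‖ ^ 2 - (inner ℝ a b) ^ 2

theorem gram_nonneg (a b : E3) : 0 ≤ gram a b := by
  unfold gram
  have := real_inner_mul_inner_self_le a b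
  rw [real_inner_self_eq_norm_sq, real_inner_self_eq_norm_sq] at this
  nlinarith

section Generic

variable {X : Type*} [NormedAddCommGroup X] [NormedSpace ℝ X] [MeasurableSpace X] [BorelSpace X]

/-- The scalar relating `μHE[2]` and `μH[2]`. -/
theorem muHE_eq_smul_muH (S : Set X) :
    μHE[2] S = (Measure.addHaarScalarFactor (volume : Measure (EuclideanSpace ℝ (Fin 2)))
      μH[((2 : ℕ) : ℝ)]) • μH[(2 : ℝ)] S := by
  rw [MeasureTheory.Measure.euclideanHausdorffMeasure_def, Measure.smul_apply]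
  simp

theorem muHE_null_of_muH_null (S : Set X) (h : μH[(2 : ℝ)] S = 0) : μHE[2] S = 0 := by
  rw [muHE_eq_smul_muH, h, smul_zero]

theorem muH_affine_line_null (c d : X) :
    μH[(2 : ℝ)] (Set.range (fun t : ℝ => c + t • d)) = 0 := by
  have hL : LipschitzWith ‖d‖₊ (fun t : ℝ => c + t • d) := by
    apply LipschitzWith.of_dist_le_mul
    intro x y
    rw [dist_eq_norm, add_sub_add_left_eq_sub, ← sub_smul, norm_smul, dist_eq_norm, mul_comm]
    simp
  have h1 := hL.hausdorffMeasure_image_le (d := 2) (by norm_num) Set.univ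
  rw [Set.image_univ] at h1
  have h0 : μH[(2 : ℝ)] (Set.univ : Set ℝ) = 0 := by
    have := hausdorffMeasure_of_dimH_lt (s := (Set.univ : Set ℝ)) (d := 2)
      (by rw [Real.dimH_univ]; norm_num)
    simpa using this
  rw [h0, mul_zero] at h1
  exact le_antisymm h1 bot_le

theorem muHE_affine_line_null (c d : X) :
    μHE[2] (Set.range (fun t : ℝ => c + t • d)) = 0 :=
  muHE_null_of_muH_null _ (muH_affine_line_null c d)

theorem muHE_line_null (d : X) : μHE[2] (Set.range (fun t : ℝ => t • d)) = 0 := by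
  have h := muHE_affine_line_null (0 : X) d
  simpa using h

theorem muHE_segment_null (p q : X) : μHE[2] (segment ℝ p q) = 0 := by
  apply measure_mono_null _ (muHE_affine_line_null p (q - p))
  intro x hx
  rw [segment_eq_image_lineMap] at hx
  obtain ⟨t, -, rfl⟩ := hx
  refine ⟨t, ?_⟩
  simp only [AffineMap.lineMap_apply, vsub_eq_sub, vadd_eq_add]
  abel

end Generic

/-- determinant of a linear endomorphism of `E2` in coordinates -/
theorem det_lin_E2 (f : E2 →ₗ[ℝ] E2) :
    LinearMap.det f = (f (EuclideanSpace.single 0 1)) 0 * (f (EuclideanSpace.single 1 1)) 1 -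
      (f (EuclideanSpace.single 1 1)) 0 * (f (EuclideanSpace.single 0 1)) 1 := by
  rw [← LinearMap.det_toMatrix (EuclideanSpace.basisFun (Fin 2) ℝ).toBasis, Matrix.det_fin_two]
  simp [LinearMap.toMatrix_apply]

theorem norm_sq_E2 (x : E2) : ‖x‖ ^ 2 = x 0 ^ 2 + x 1 ^ 2 := by
  rw [EuclideanSpace.norm_sq_eq]
  simp [Fin.sum_univ_two]

theorem norm_sq_E3 (x : E3) : ‖x‖ ^ 2 = x 0 ^ 2 + x 1 ^ 2 + x 2 ^ 2 := by
  rw [EuclideanSpace.norm_sq_eq]
  simp [Fin.sum_univ_three]

theorem inner_E3 (x y : E3) : inner ℝ x y = x 0 * y 0 + x 1 * y 1 + x 2 * y 2 := by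
  rw [EuclideanSpace.inner_eq_star_dotProduct]
  simp [dotProduct, Fin.sum_univ_three]
  ring

theorem inner_E2 (x y : E2) : inner ℝ x y = x 0 * y 0 + x 1 * y 1 := by
  rw [EuclideanSpace.inner_eq_star_dotProduct]
  simp [dotProduct, Fin.sum_univ_two]
  ring

/-- the linear map `E2 → E3` with columns `a`, `b` -/
noncomputable def lin2 (a b : E3) : E2 →ₗ[ℝ] E3 where
  toFun x := x 0 • a + x 1 • b
  map_add' x y := by simp only [PiLp.add_apply, add_smul]; abel
  map_smul' c x := by simp only [PiLp.smul_apply, smul_eq_mul, RingHom.id_apply, smul_add, smul_smul]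

theorem lin2_apply (a b : E3) (x : E2) : lin2 a b x = x 0 • a + x 1 • b := rfl

theorem norm_sq_comb (e₁ e₂ : E3) (h1 : ‖e₁‖ = 1) (h2 : ‖e₂‖ = 1) (h12 : inner ℝ e₁ e₂ = 0)
    (s t : ℝ) : ‖s • e₁ + t • e₂‖ ^ 2 = s ^ 2 + t ^ 2 := by
  have h21 : inner ℝ e₂ e₁ = 0 := by rw [real_inner_comm]; exact h12
  rw [← real_inner_self_eq_norm_sq]
  simp only [inner_add_left, inner_add_right, real_inner_smul_left, real_inner_smul_right,
    real_inner_self_eq_norm_sq, h12, h21]
  rw [norm_smul, norm_smul, h1, h2, Real.norm_eq_abs, Real.norm_eq_abs, mul_one, mul_one,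
    sq_abs, sq_abs]
  ring

theorem isometry_lin2 (e₁ e₂ : E3) (h1 : ‖e₁‖ = 1) (h2 : ‖e₂‖ = 1) (h12 : inner ℝ e₁ e₂ = 0) :
    Isometry (lin2 e₁ e₂) := by
  apply AddMonoidHomClass.isometry_of_norm
  intro x
  have h := norm_sq_comb e₁ e₂ h1 h2 h12 (x 0) (x 1)
  rw [← norm_sq_E2 x] at h
  rw [lin2_apply]
  exact (sq_eq_sq₀ (norm_nonneg _) (norm_nonneg _)).mp h

theorem gram_eq_zero_line (a b : E3) (h : gram a b = 0) :
    ∃ d : E3, ∀ s t : ℝ, s • a + t • b ∈ Set.range (fun r : ℝ => r • d) := by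
  by_cases ha : a = 0
  · refine ⟨b, fun s t => ⟨t, ?_⟩⟩
    simp [ha]
  · have hn : 0 < ‖a‖ := norm_pos_iff.mpr ha
    set c := inner ℝ a b / ‖a‖ ^ 2 with hc
    have hb : b = c • a := by
      have h1 : ‖b - c • a‖ ^ 2 = 0 := by
        rw [norm_sub_sq_real, real_inner_smul_right, norm_smul, mul_pow, Real.norm_eq_abs, sq_abs,
          real_inner_comm, hc]
        unfold gram at h
        field_simp
        linarith
      have h2 : ‖b - c • a‖ = 0 := by
        rcases pow_eq_zero_iff (n := 2) (by norm_num) |>.mp h1 with h3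
        exact h3
      exact sub_eq_zero.mp (norm_eq_zero.mp h2)
    refine ⟨a, fun s t => ⟨s + t * c, ?_⟩⟩
    show (s + t * c) • a = s • a + t • b
    rw [hb, add_smul, smul_smul]

theorem muHE_image_lin2 (a b : E3) (S : Set E2) :
    μHE[2] (lin2 a b '' S) = ENNReal.ofReal (Real.sqrt (gram a b)) * volume S := by
  rcases (gram_nonneg a b).eq_or_lt with h0 | hpos
  · obtain ⟨d, hd⟩ := gram_eq_zero_line a b h0.symm
    have hsub : lin2 a b '' S ⊆ Set.range (fun r : ℝ => r • d) := by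
      rintro _ ⟨x, -, rfl⟩
      exact hd (x 0) (x 1)
    have h1 : μHE[2] (lin2 a b '' S) = 0 := measure_mono_null hsub (muHE_line_null d)
    rw [h1, ← h0, Real.sqrt_zero, ENNReal.ofReal_zero, zero_mul]
  · have ha : a ≠ 0 := by
      rintro rfl
      simp [gram] at hpos
    have hn₁ : 0 < ‖a‖ := norm_pos_iff.mpr ha
    set n₁ := ‖a‖ with hn₁def
    set e₁ : E3 := n₁⁻¹ • a with he₁
    set c := inner ℝ a b / n₁ with hc
    set b' : E3 := b - c • e₁ with hb'
    have he₁n : ‖e₁‖ = 1 := norm_smul_inv_norm ha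
    have hce : inner ℝ e₁ b = c := by
      rw [he₁, real_inner_smul_left, hc]; field_simp
    have hb'n : ‖b'‖ ^ 2 = gram a b / n₁ ^ 2 := by
      rw [hb', norm_sub_sq_real, real_inner_smul_right, real_inner_comm, hce, norm_smul, he₁n,
        mul_one, Real.norm_eq_abs, sq_abs]
      unfold gram
      rw [hc, ← hn₁def]
      field_simp
      ring
    have hn₂sq : 0 < ‖b'‖ ^ 2 := by rw [hb'n]; positivity
    have hn₂ : 0 < ‖b'‖ := by
      rcases (norm_nonneg b').eq_or_lt with h | h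
      · rw [← h] at hn₂sq; simp at hn₂sq
      · exact h
    have hb'0 : b' ≠ 0 := norm_pos_iff.mp hn₂
    set n₂ := ‖b'‖ with hn₂def
    set e₂ : E3 := n₂⁻¹ • b' with he₂
    have he₂n : ‖e₂‖ = 1 := norm_smul_inv_norm hb'0
    have h12 : inner ℝ e₁ e₂ = 0 := by
      rw [he₂, real_inner_smul_right, hb', inner_sub_right, hce, real_inner_smul_right,
        real_inner_self_eq_norm_sq, he₁n]
      ring
    let T : E2 →ₗ[ℝ] E2 :=
      { toFun := fun x => !₂[n₁ * x 0 + c * x 1, n₂ * x 1]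
        map_add' := by
          intro x y
          ext i
          fin_cases i <;> simp <;> ring
        map_smul' := by
          intro r x
          ext i
          fin_cases i <;> simp <;> ring }
    have hT0 : ∀ x : E2, (T x) 0 = n₁ * x 0 + c * x 1 := fun x => rfl
    have hT1 : ∀ x : E2, (T x) 1 = n₂ * x 1 := fun x => rfl
    have hfac : ∀ x : E2, lin2 a b x = lin2 e₁ e₂ (T x) := by
      intro x
      rw [lin2_apply, lin2_apply, hT0, hT1]
      have e1 : a = n₁ • e₁ := by rw [he₁, smul_smul, mul_inv_cancel₀ hn₁.ne', one_smul]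
      have e2' : n₂ • e₂ = b' := by
        rw [he₂, smul_smul, mul_inv_cancel₀ hn₂.ne', one_smul]
      have e2 : b = c • e₁ + n₂ • e₂ := by
        rw [e2', hb']; abel
      conv_lhs => rw [e1, e2]
      module
    have himg : lin2 a b '' S = lin2 e₁ e₂ '' (T '' S) := by
      rw [Set.image_image]
      exact Set.image_congr (fun x _ => hfac x)
    have hdet : LinearMap.det T = n₁ * n₂ := by
      rw [det_lin_E2, hT0, hT1, hT0, hT1]
      simp
    have hsqrt : Real.sqrt (gram a b) = n₁ * n₂ := by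
      have : gram a b = (n₁ * n₂) ^ 2 := by
        rw [mul_pow, hb'n]; field_simp
      rw [this, Real.sqrt_sq (by positivity)]
    rw [himg, (isometry_lin2 e₁ e₂ he₁n he₂n h12).euclideanHausdorffMeasure_image,
      EuclideanSpace.euclideanHausdorffMeasure_eq_volume, Measure.addHaar_image_linearMap, hdet,
      hsqrt, abs_of_pos (by positivity)]

/-- unit square in `E2` -/
def Q2 : Set E2 := {x | 0 ≤ x 0 ∧ x 0 ≤ 1 ∧ 0 ≤ x 1 ∧ x 1 ≤ 1}

/-- standard triangle in `E2` -/
def T2 : Set E2 := {x | 0 ≤ x 0 ∧ 0 ≤ x 1 ∧ x 0 + x 1 ≤ 1}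

theorem volume_Q2 : volume Q2 = 1 := by
  have h : Q2 = (WithLp.ofLp : E2 → (Fin 2 → ℝ)) ⁻¹' (Set.Icc 0 1) := by
    ext x
    simp only [Q2, Set.mem_ofPred_eq, Set.mem_preimage, Set.mem_Icc, Pi.le_def, Fin.forall_fin_two]
    simp only [Pi.zero_apply, Pi.one_apply]
    tauto
  rw [h, (PiLp.volume_preserving_ofLp (Fin 2)).measure_preimage
    measurableSet_Icc.nullMeasurableSet, Real.volume_Icc_pi]
  simp

theorem continuous_coord_E2 (i : Fin 2) : Continuous (fun x : E2 => x i) := by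
  fun_prop

theorem isClosed_T2 : IsClosed T2 := by
  have h0 := continuous_coord_E2 0
  have h1 := continuous_coord_E2 1
  exact (isClosed_le continuous_const h0).inter ((isClosed_le continuous_const h1).inter
    (isClosed_le (h0.add h1) continuous_const))

theorem convex_T2 : Convex ℝ T2 := by
  intro x hx y hy a b ha hb hab
  obtain ⟨hx0, hx1, hx2⟩ := hx
  obtain ⟨hy0, hy1, hy2⟩ := hy
  refine ⟨?_, ?_, ?_⟩
  · simp only [PiLp.add_apply, PiLp.smul_apply, smul_eq_mul]
    positivity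
  · simp only [PiLp.add_apply, PiLp.smul_apply, smul_eq_mul]
    positivity
  · simp only [PiLp.add_apply, PiLp.smul_apply, smul_eq_mul]
    nlinarith [mul_nonneg ha (sub_nonneg.mpr hx2), mul_nonneg hb (sub_nonneg.mpr hy2)]

theorem volume_T2 : volume T2 = 1 / 2 := by
  let c : E2 := !₂[1, 1]
  have hc0 : c 0 = 1 := rfl
  have hc1 : c 1 = 1 := rfl
  have hσ : Isometry (fun x : E2 => c - x) := (IsometryEquiv.subLeft c).isometry
  have hvol : volume ((fun x : E2 => c - x) '' T2) = volume T2 := by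
    rw [← EuclideanSpace.euclideanHausdorffMeasure_eq_volume 2]
    exact hσ.euclideanHausdorffMeasure_image T2
  have hunion : Q2 = T2 ∪ (fun x : E2 => c - x) '' T2 := by
    ext x
    constructor
    · rintro ⟨h1, h2, h3, h4⟩
      by_cases h : x 0 + x 1 ≤ 1
      · left; exact ⟨h1, h3, h⟩
      · right
        refine ⟨c - x, ⟨?_, ?_, ?_⟩, ?_⟩
        · simp only [PiLp.sub_apply, hc0]; linarith
        · simp only [PiLp.sub_apply, hc1]; linarith
        · simp only [PiLp.sub_apply, hc0, hc1]; linarith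
        · simp
    · rintro (⟨h1, h2, h3⟩ | ⟨y, ⟨h1, h2, h3⟩, rfl⟩)
      · exact ⟨h1, by linarith, h2, by linarith⟩
      · refine ⟨?_, ?_, ?_, ?_⟩ <;> simp only [PiLp.sub_apply, hc0, hc1] <;> linarith
  have hinter : T2 ∩ (fun x : E2 => c - x) '' T2 ⊆
      Set.range (fun t : ℝ => (!₂[1, 0] : E2) + t • (!₂[-1, 1] : E2)) := by
    rintro x ⟨⟨h1, h2, h3⟩, y, ⟨h4, h5, h6⟩, rfl⟩
    simp only [PiLp.sub_apply, hc0, hc1] at h1 h2 h3
    refine ⟨1 - y 1, ?_⟩
    ext i
    fin_cases i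
    · simp [hc0]; linarith
    · simp [hc1]
  have hnull : volume (T2 ∩ (fun x : E2 => c - x) '' T2) = 0 := by
    rw [← EuclideanSpace.euclideanHausdorffMeasure_eq_volume 2]
    exact measure_mono_null hinter (muHE_affine_line_null _ _)
  have hadd := measure_union_add_inter' (μ := (volume : Measure E2)) isClosed_T2.measurableSet
    ((fun x : E2 => c - x) '' T2)
  rw [← hunion, hnull, hvol, volume_Q2, add_zero] at hadd
  have h2 : volume T2 * 2 = 1 := by rw [mul_two]; exact hadd.symm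
  rw [ENNReal.eq_inv_of_mul_eq_one_left h2, one_div]

theorem muHE_parallelogram (c a b : E3) :
    μHE[2] {x : E3 | ∃ s ∈ Set.Icc (0 : ℝ) 1, ∃ t ∈ Set.Icc (0 : ℝ) 1, x = c + s • a + t • b} =
      ENNReal.ofReal (Real.sqrt (gram a b)) := by
  have h : {x : E3 | ∃ s ∈ Set.Icc (0 : ℝ) 1, ∃ t ∈ Set.Icc (0 : ℝ) 1, x = c + s • a + t • b} =
      (fun y => c + y) '' (lin2 a b '' Q2) := by
    ext x
    constructor
    · rintro ⟨s, hs, t, ht, rfl⟩
      refine ⟨s • a + t • b, ⟨!₂[s, t], ⟨?_, ?_, ?_, ?_⟩, ?_⟩, ?_⟩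
      · exact hs.1
      · exact hs.2
      · exact ht.1
      · exact ht.2
      · rw [lin2_apply]; rfl
      · show c + (s • a + t • b) = c + s • a + t • b
        rw [add_assoc]
    · rintro ⟨_, ⟨y, ⟨h1, h2, h3, h4⟩, rfl⟩, rfl⟩
      refine ⟨y 0, ⟨h1, h2⟩, y 1, ⟨h3, h4⟩, ?_⟩
      show c + lin2 a b y = c + y 0 • a + y 1 • b
      rw [lin2_apply, add_assoc]
  rw [h, (isometry_add_left c).euclideanHausdorffMeasure_image, muHE_image_lin2, volume_Q2, mul_one]

theorem convexHull_triple_eq (p q r : E3) :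
    convexHull ℝ ({p, q, r} : Set E3) = (fun y => p + y) '' (lin2 (q - p) (r - p) '' T2) := by
  apply Set.Subset.antisymm
  · apply convexHull_min
    · rintro x (rfl | rfl | rfl)
      · refine ⟨0, ⟨0, ⟨?_, ?_, ?_⟩, ?_⟩, ?_⟩ <;> simp
      · refine ⟨x - p, ⟨!₂[1, 0], ⟨?_, ?_, ?_⟩, ?_⟩, ?_⟩
        · show (0 : ℝ) ≤ 1
          norm_num
        · show (0 : ℝ) ≤ 0
          norm_num
        · show (1 : ℝ) + 0 ≤ 1
          norm_num
        · rw [lin2_apply]
          show (1 : ℝ) • (x - p) + (0 : ℝ) • (r - p) = x - p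
          simp
        · simp
      · refine ⟨x - p, ⟨!₂[0, 1], ⟨?_, ?_, ?_⟩, ?_⟩, ?_⟩
        · show (0 : ℝ) ≤ 0
          norm_num
        · show (0 : ℝ) ≤ 1
          norm_num
        · show (0 : ℝ) + 1 ≤ 1
          norm_num
        · rw [lin2_apply]
          show (0 : ℝ) • (q - p) + (1 : ℝ) • (x - p) = x - p
          simp
        · simp
    · exact (convex_T2.is_linear_image (lin2 (q - p) (r - p)).isLinear).translate p
  · rintro _ ⟨_, ⟨y, ⟨h1, h2, h3⟩, rfl⟩, rfl⟩
    have e : p + lin2 (q - p) (r - p) y = (1 - y 0 - y 1) • p + y 0 • q + y 1 • r := by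
      rw [lin2_apply]; module
    show p + lin2 (q - p) (r - p) y ∈ convexHull ℝ ({p, q, r} : Set E3)
    rw [e]
    have hmem := (convex_convexHull ℝ ({p, q, r} : Set E3)).sum_mem (t := Finset.univ)
      (w := ![1 - y 0 - y 1, y 0, y 1]) (z := ![p, q, r])
      (by intro i _; fin_cases i <;> simp <;> linarith)
      (by simp [Fin.sum_univ_three]; ring)
      (by
        intro i _
        fin_cases i
        · exact subset_convexHull ℝ _ (by simp)
        · exact subset_convexHull ℝ _ (by simp)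
        · exact subset_convexHull ℝ _ (by simp))
    simpa [Fin.sum_univ_three, add_assoc] using hmem

theorem muHE_triangle (p q r : E3) :
    μHE[2] (convexHull ℝ ({p, q, r} : Set E3)) =
      ENNReal.ofReal (Real.sqrt (gram (q - p) (r - p)) / 2) := by
  rw [convexHull_triple_eq, (isometry_add_left p).euclideanHausdorffMeasure_image, muHE_image_lin2,
    volume_T2, ENNReal.ofReal_div_of_pos (by norm_num), mul_one_div]
  simp

/-- 3×3 determinant with rows `a`, `b`, `c`. -/
noncomputable def det3 (a b c : E3) : ℝ :=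
  a 0 * (b 1 * c 2 - b 2 * c 1) - a 1 * (b 0 * c 2 - b 2 * c 0) + a 2 * (b 0 * c 1 - b 1 * c 0)

theorem gram_of_orth (u a b : E3) (hu : ‖u‖ = 1) (ha : inner ℝ a u = 0) (hb : inner ℝ b u = 0) :
    gram a b = (det3 a b u) ^ 2 := by
  have hu2 : ‖u‖ ^ 2 = 1 := by rw [hu]; norm_num
  rw [norm_sq_E3] at hu2
  rw [inner_E3] at ha hb
  unfold gram det3
  rw [norm_sq_E3, norm_sq_E3, inner_E3]
  linear_combination (-((a 0 ^ 2 + a 1 ^ 2 + a 2 ^ 2) * (b 0 ^ 2 + b 1 ^ 2 + b 2 ^ 2) -
      (a 0 * b 0 + a 1 * b 1 + a 2 * b 2) ^ 2)) * hu2 +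
    (-2 * (a 0 * b 0 + a 1 * b 1 + a 2 * b 2) * (b 0 * u 0 + b 1 * u 1 + b 2 * u 2) +
      (b 0 ^ 2 + b 1 ^ 2 + b 2 ^ 2) * (a 0 * u 0 + a 1 * u 1 + a 2 * u 2)) * ha +
    ((a 0 ^ 2 + a 1 ^ 2 + a 2 ^ 2) * (b 0 * u 0 + b 1 * u 1 + b 2 * u 2)) * hb

theorem inner_proj_self (u a : E3) (hu : ‖u‖ = 1) : inner ℝ (a - inner ℝ a u • u) u = 0 := by
  rw [inner_sub_left, real_inner_smul_left, real_inner_self_eq_norm_sq, hu]
  ring

theorem det3_proj (u a b : E3) :
    det3 (a - inner ℝ a u • u) (b - inner ℝ b u • u) u = det3 a b u := by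
  unfold det3
  simp only [PiLp.sub_apply, PiLp.smul_apply, smul_eq_mul]
  ring

theorem gram_proj (u a b : E3) (hu : ‖u‖ = 1) :
    gram (a - inner ℝ a u • u) (b - inner ℝ b u • u) = (det3 a b u) ^ 2 := by
  rw [gram_of_orth u _ _ hu (inner_proj_self u a hu) (inner_proj_self u b hu), det3_proj]

/-- an orthonormal frame of the plane orthogonal to a unit vector -/
theorem exists_orthonormal_frame (u : E3) (hu : ‖u‖ = 1) :
    ∃ e₁ e₂ : E3, ‖e₁‖ = 1 ∧ ‖e₂‖ = 1 ∧ inner ℝ e₁ e₂ = 0 ∧ inner ℝ e₁ u = 0 ∧ inner ℝ e₂ u = 0 ∧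
      ∀ x : E3, inner ℝ x u = 0 → ∃ s t : ℝ, x = s • e₁ + t • e₂ := by
  have hu0 : u ≠ 0 := by
    intro h; rw [h, norm_zero] at hu; norm_num at hu
  haveI : Fact (Module.finrank ℝ E3 = 2 + 1) := ⟨by simp⟩
  have hfin : Module.finrank ℝ (ℝ ∙ u)ᗮ = 2 := Submodule.finrank_orthogonal_span_singleton hu0
  let b0 := stdOrthonormalBasis ℝ (ℝ ∙ u)ᗮ
  let b : OrthonormalBasis (Fin 2) ℝ (ℝ ∙ u)ᗮ := b0.reindex (finCongr hfin)
  have hb := b.orthonormal
  rw [orthonormal_iff_ite] at hb
  refine ⟨(b 0 : E3), (b 1 : E3), ?_, ?_, ?_, ?_, ?_, ?_⟩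
  · have := hb 0 0
    simp only [if_true] at this
    rw [← Submodule.coe_norm]
    rw [real_inner_self_eq_norm_sq] at this
    have h0 := norm_nonneg (b 0)
    nlinarith
  · have := hb 1 1
    simp only [if_true] at this
    rw [← Submodule.coe_norm]
    rw [real_inner_self_eq_norm_sq] at this
    have h0 := norm_nonneg (b 1)
    nlinarith
  · have := hb 0 1
    rw [← Submodule.coe_inner]
    simpa using this
  · exact Submodule.mem_orthogonal_singleton_iff_inner_left.mp (b 0).2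
  · exact Submodule.mem_orthogonal_singleton_iff_inner_left.mp (b 1).2
  · intro x hx
    have hxm : x ∈ (ℝ ∙ u)ᗮ := Submodule.mem_orthogonal_singleton_iff_inner_left.mpr hx
    have hsum := b.sum_repr ⟨x, hxm⟩
    rw [Fin.sum_univ_two] at hsum
    refine ⟨b.repr ⟨x, hxm⟩ 0, b.repr ⟨x, hxm⟩ 1, ?_⟩
    have := congrArg (Subtype.val) hsum
    simp only [Submodule.coe_add, Submodule.coe_smul] at this
    exact this.symm

theorem muHE_plane_bounded_lt_top (u : E3) (hu : ‖u‖ = 1) (S : Set E3)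
    (hS : Bornology.IsBounded S) (hSu : ∀ x ∈ S, inner ℝ x u = 0) : μHE[2] S < ⊤ := by
  obtain ⟨e₁, e₂, h1, h2, h12, -, -, hspan⟩ := exists_orthonormal_frame u hu
  obtain ⟨R, hR⟩ := hS.exists_norm_le
  have hsub : S ⊆ lin2 e₁ e₂ '' (Metric.closedBall (0 : E2) R) := by
    intro x hx
    obtain ⟨s, t, rfl⟩ := hspan x (hSu x hx)
    refine ⟨!₂[s, t], ?_, rfl⟩
    rw [mem_closedBall_zero_iff]
    have hn := hR _ hx
    have h3 := norm_sq_comb e₁ e₂ h1 h2 h12 s t
    have h4 : ‖(!₂[s, t] : E2)‖ ^ 2 = s ^ 2 + t ^ 2 := by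
      rw [norm_sq_E2]; rfl
    have h5 : ‖(!₂[s, t] : E2)‖ = ‖s • e₁ + t • e₂‖ := by
      apply (sq_eq_sq₀ (norm_nonneg _) (norm_nonneg _)).mp
      rw [h3, h4]
    rw [h5]; exact hn
  refine lt_of_le_of_lt (measure_mono hsub) ?_
  rw [muHE_image_lin2]
  exact ENNReal.mul_lt_top ENNReal.ofReal_lt_top measure_closedBall_lt_top

theorem exists_open_enlargement (u : E3) (hu : ‖u‖ = 1) (B : Set E3) (hB : IsCompact B)
    (hBu : ∀ x ∈ B, inner ℝ x u = 0) (ε : ℝ) (hε : 0 < ε) :
    ∃ O : Set E3, IsOpen O ∧ Bornology.IsBounded (O ∩ {x | inner ℝ x u = 0}) ∧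
      B ⊆ O ∩ {x | inner ℝ x u = 0} ∧
      (μHE[2] (O ∩ {x | inner ℝ x u = 0})).toReal ≤ (μHE[2] B).toReal + ε := by
  set P : Set E3 := {x | inner ℝ x u = 0} with hP
  have hPcl : IsClosed P := isClosed_eq (by fun_prop) continuous_const
  have hfin : ∀ r : ℝ, μHE[2] (Metric.cthickening r B ∩ P) < ⊤ := by
    intro r
    apply muHE_plane_bounded_lt_top u hu
    · exact (hB.isBounded.cthickening).subset Set.inter_subset_left
    · intro x hx; exact hx.2
  have hBP : B ∩ P = B := Set.inter_eq_left.mpr (fun x hx => hBu x hx)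
  have hBfin : μHE[2] B < ⊤ := muHE_plane_bounded_lt_top u hu B hB.isBounded hBu
  have htend := tendsto_measure_cthickening_of_isClosed (μ := (μHE[2] : Measure E3).restrict P)
    (s := B) ⟨1, one_pos, by
      rw [Measure.restrict_apply Metric.isClosed_cthickening.measurableSet]
      exact (hfin 1).ne⟩ hB.isClosed
  have hlt : (μHE[2] : Measure E3).restrict P B < μHE[2] B + ENNReal.ofReal ε := by
    rw [Measure.restrict_apply hB.isClosed.measurableSet, hBP]
    exact ENNReal.lt_add_right hBfin.ne (by simpa using hε)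
  have hev := (tendsto_order.1 htend).2 _ hlt
  obtain ⟨δ, hδ, hδ'⟩ := Metric.eventually_nhds_iff.mp hev
  have hr : dist (δ / 2) (0 : ℝ) < δ := by
    rw [Real.dist_eq, sub_zero, abs_of_pos (by positivity)]; linarith
  have hmeas := hδ' hr
  rw [Measure.restrict_apply Metric.isClosed_cthickening.measurableSet] at hmeas
  refine ⟨Metric.thickening (δ / 2) B, Metric.isOpen_thickening, ?_, ?_, ?_⟩
  · exact (hB.isBounded.cthickening (δ := δ / 2)).subset
      (Set.inter_subset_left.trans (Metric.thickening_subset_cthickening _ _))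
  · intro x hx
    exact ⟨Metric.self_subset_thickening (by positivity) B hx, hBu x hx⟩
  · have hle : μHE[2] (Metric.thickening (δ / 2) B ∩ P) ≤ μHE[2] B + ENNReal.ofReal ε :=
      le_trans (measure_mono (Set.inter_subset_inter_left _
        (Metric.thickening_subset_cthickening _ _))) hmeas.le
    have h1 := ENNReal.toReal_mono (ENNReal.add_ne_top.mpr ⟨hBfin.ne, ENNReal.ofReal_ne_top⟩) hle
    rw [ENNReal.toReal_add hBfin.ne ENNReal.ofReal_ne_top, ENNReal.toReal_ofReal hε.le] at h1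
    exact h1

end Crest.Agent.Helper7
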