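import Crest.Agent.Helper7.CoverGeom

set_option autoImplicit false
set_option linter.unusedSectionVars false
set_option linter.unusedVariables false

open MeasureTheory
open scoped ENNReal NNReal

namespace Crest.Agent.Helper7

open Crest.Agent.Helper7.Cover

/-- the `ℕ`-indexed family of axes: lower family for `k < NN`, upper family afterwards -/
noncomputable def uN (k : ℕ) : E3 :=
  if k < NN then ‖dL k‖⁻¹ • dL k else ‖dU (k - NN)‖⁻¹ • dU (k - NN)
noncomputable def pN (k : ℕ) : E3 :=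
  if k < NN then projL (‖dL k‖⁻¹ • dL k) 0 else projL (‖dU (k - NN)‖⁻¹ • dU (k - NN)) O'
noncomputable def qN (k : ℕ) : E3 :=
  if k < NN then projL (‖dL k‖⁻¹ • dL k) (V1 k)
  else projL (‖dU (k - NN)‖⁻¹ • dU (k - NN)) (V1' (k - NN))
noncomputable def rN (k : ℕ) : E3 :=
  if k < NN then projL (‖dL k‖⁻¹ • dL k) (V2 k)
  else projL (‖dU (k - NN)‖⁻¹ • dU (k - NN)) (V2' (k - NN))

/-- the common area term -/
noncomputable def term (i : ℕ) : ℝ := dd * RR i ^ 2 / Real.sqrt (1 + ww i)

theorem term_nonneg (i : ℕ) : 0 ≤ term i := by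
  unfold term
  have := dd_pos
  positivity

theorem norm_unit (d : E3) (hd : d ≠ 0) : ‖‖d‖⁻¹ • d‖ = 1 := by
  rw [norm_smul, norm_inv, norm_norm, inv_mul_cancel₀ (norm_ne_zero_iff.mpr hd)]

theorem uN_norm (k : ℕ) : ‖uN k‖ = 1 := by
  unfold uN
  split_ifs
  · exact norm_unit _ (dL_ne_zero k)
  · exact norm_unit _ (dU_ne_zero _)

theorem pqrN_orth (k : ℕ) :
    inner ℝ (pN k) (uN k) = 0 ∧ inner ℝ (qN k) (uN k) = 0 ∧ inner ℝ (rN k) (uN k) = 0 := by
  unfold pN qN rN uN
  split_ifs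
  · have h := norm_unit _ (dL_ne_zero k)
    exact ⟨inner_projL _ _ h, inner_projL _ _ h, inner_projL _ _ h⟩
  · have h := norm_unit _ (dU_ne_zero (k - NN))
    exact ⟨inner_projL _ _ h, inner_projL _ _ h, inner_projL _ _ h⟩

theorem areaN (k : ℕ) :
    μHE[2] (convexHull ℝ ({pN k, qN k, rN k} : Set E3)) =
      ENNReal.ofReal (Real.sqrt 2 * term (if k < NN then k else k - NN) / 2) := by
  unfold pN qN rN term
  split_ifs
  · exact lower_area k
  · exact upper_area (k - NN)

theorem areaN_toReal (k : ℕ) :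
    (μHE[2] (convexHull ℝ ({pN k, qN k, rN k} : Set E3))).toReal =
      Real.sqrt 2 * term (if k < NN then k else k - NN) / 2 := by
  rw [areaN, ENNReal.toReal_ofReal]
  have := term_nonneg (if k < NN then k else k - NN)
  have := sqrt2_pos
  positivity

theorem sum_areaN :
    ∑ k ∈ Finset.range (2 * NN), (μHE[2] (convexHull ℝ ({pN k, qN k, rN k} : Set E3))).toReal =
      Real.sqrt 2 * ∑ i ∈ Finset.range NN, term i := by
  rw [two_mul, Finset.sum_range_add]
  have h1 : ∀ k ∈ Finset.range NN,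
      (μHE[2] (convexHull ℝ ({pN k, qN k, rN k} : Set E3))).toReal = Real.sqrt 2 * term k / 2 := by
    intro k hk
    rw [areaN_toReal, if_pos (Finset.mem_range.mp hk)]
  have h2 : ∀ j ∈ Finset.range NN,
      (μHE[2] (convexHull ℝ ({pN (NN + j), qN (NN + j), rN (NN + j)} : Set E3))).toReal =
        Real.sqrt 2 * term j / 2 := by
    intro j hj
    rw [areaN_toReal, if_neg (by omega), Nat.add_sub_cancel_left]
  rw [Finset.sum_congr rfl h1, Finset.sum_congr rfl h2, ← Finset.sum_add_distrib, Finset.mul_sum]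
  apply Finset.sum_congr rfl
  intro i _
  ring

theorem coverN
    (h_arith : ∀ x y s : ℝ, |x| ≤ 1 - s → |y| ≤ s →
      (∃ i < NN, LowerCond i x y s) ∨ (∃ j < NN, UpperCond j x y s))
    (P : E3) (hP : P ∈ K0) :
    ∃ k < 2 * NN, ∃ b ∈ convexHull ℝ ({pN k, qN k, rN k} : Set E3), ∃ t : ℝ, P = b + t • uN k := by
  obtain ⟨s, hs, hx, hy⟩ := K0_coords P hP
  rcases h_arith (P 0) (P 1) s hx hy with ⟨i, hi, hL⟩ | ⟨j, hj, hU⟩
  · refine ⟨i, by omega, ?_⟩
    have := lower_mem i P s hs hL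
    unfold pN qN rN uN
    rw [if_pos hi, if_pos hi, if_pos hi, if_pos hi]
    exact this
  · refine ⟨NN + j, by omega, ?_⟩
    have := upper_mem j P s hs hU
    unfold pN qN rN uN
    have hn : ¬ (NN + j < NN) := by omega
    rw [if_neg hn, if_neg hn, if_neg hn, if_neg hn, Nat.add_sub_cancel_left]
    exact this

end Crest.Agent.Helper7
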