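import Crest.Agent.Helper7.CoverAux

set_option autoImplicit false
set_option linter.unusedSectionVars false
set_option linter.unusedVariables false

open MeasureTheory
open scoped ENNReal NNReal

namespace Crest.Agent.Helper7

open Crest.Agent.Helper7.Cover

/-- the two arithmetic inputs of the explicit cover -/
def ArithHyp : Prop := ∀ x y s : ℝ, |x| ≤ 1 - s → |y| ≤ s →
  (∃ i < NN, LowerCond i x y s) ∨ (∃ j < NN, UpperCond j x y s)

def AreaHyp : Prop :=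
  ∑ i ∈ Finset.range NN, dd * RR i ^ 2 / Real.sqrt (1 + ww i) ≤ 1 / 2 - 13 / 6000 * (1 / 2000) ^ 2

theorem sum_term_le (h_area : AreaHyp) :
    ∑ i ∈ Finset.range NN, term i ≤ 1 / 2 - 13 / 6000 * (1 / 2000) ^ 2 := h_area

theorem sum_term_nonneg : 0 ≤ ∑ i ∈ Finset.range NN, term i :=
  Finset.sum_nonneg (fun i _ => term_nonneg i)

/-- Fin-indexed explicit cover of the standard tetrahedron by triangular cylinders. -/
theorem cover_K0_of (h_arith : ArithHyp) (h_area : AreaHyp) :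
    ∃ (m : ℕ) (u p q r : Fin m → E3), (∀ i, ‖u i‖ = 1) ∧
      (∀ i, inner ℝ (p i) (u i) = 0 ∧ inner ℝ (q i) (u i) = 0 ∧ inner ℝ (r i) (u i) = 0) ∧
      K0 ⊆ ⋃ i, {x | ∃ b ∈ convexHull ℝ {p i, q i, r i}, ∃ t : ℝ, x = b + t • u i} ∧
      ∑ i, (μHE[2] (convexHull ℝ ({p i, q i, r i} : Set E3))).toReal ≤
        Real.sqrt 2 * (1 / 2 - 13 / 6000 * (1 / 2000) ^ 2) := by
  refine ⟨2 * NN, fun i => uN i, fun i => pN i, fun i => qN i, fun i => rN i,
    fun i => uN_norm i, fun i => pqrN_orth i, ?_, ?_⟩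
  · intro P hP
    obtain ⟨k, hk, hmem⟩ := coverN h_arith P hP
    exact Set.mem_iUnion.mpr ⟨⟨k, hk⟩, hmem⟩
  · rw [Fin.sum_univ_eq_sum_range
      (fun k => (μHE[2] (convexHull ℝ ({pN k, qN k, rN k} : Set E3))).toReal) (2 * NN),
      sum_areaN]
    exact mul_le_mul_of_nonneg_left (sum_term_le h_area) sqrt2_pos.le

theorem padded_sum (g : ℕ → ℝ) (n m : ℕ) (hm : n + 1 ≤ m) (hz : ∀ k, n < k → g k = 0) :
    ∑ k ∈ Finset.range m, g k = ∑ k ∈ Finset.range n, g k + g n := by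
  obtain ⟨r, rfl⟩ := Nat.exists_eq_add_of_le hm
  rw [Finset.sum_range_add, Finset.sum_range_succ]
  have : ∑ x ∈ Finset.range r, g (n + 1 + x) = 0 :=
    Finset.sum_eq_zero (fun x _ => hz _ (by omega))
  rw [this, add_zero]

/-- padded family: the cover, then one padding triangle of area `a`, then degenerate triangles -/
noncomputable def uM (k : ℕ) : E3 := if k < 2 * NN then uN k else !₂[0, 0, 1]
noncomputable def pM (k : ℕ) : E3 := if k < 2 * NN then pN k else 0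
noncomputable def qM (a : ℝ) (k : ℕ) : E3 :=
  if k < 2 * NN then qN k else if k = 2 * NN then !₂[2 * a, 0, 0] else 0
noncomputable def rM (k : ℕ) : E3 :=
  if k < 2 * NN then rN k else if k = 2 * NN then !₂[0, 1, 0] else 0

theorem uM_norm (k : ℕ) : ‖uM k‖ = 1 := by
  unfold uM
  split_ifs
  · exact uN_norm k
  · have h := norm_sq_E3 (!₂[0, 0, 1] : E3)
    have h2 : ‖(!₂[0, 0, 1] : E3)‖ ^ 2 = 1 := by rw [h]; simp
    have h0 := norm_nonneg (!₂[0, 0, 1] : E3)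
    nlinarith

theorem pqrM_orth (a : ℝ) (k : ℕ) :
    inner ℝ (pM k) (uM k) = 0 ∧ inner ℝ (qM a k) (uM k) = 0 ∧ inner ℝ (rM k) (uM k) = 0 := by
  unfold pM qM rM uM
  by_cases h : k < 2 * NN
  · rw [if_pos h, if_pos h, if_pos h, if_pos h]
    exact pqrN_orth k
  · rw [if_neg h, if_neg h, if_neg h, if_neg h]
    refine ⟨by simp, ?_, ?_⟩
    · split_ifs
      · rw [inner_E3]; simp
      · simp
    · split_ifs
      · rw [inner_E3]; simp
      · simp

theorem areaM_lt (a : ℝ) (k : ℕ) (h : k < 2 * NN) :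
    (μHE[2] (convexHull ℝ ({pM k, qM a k, rM k} : Set E3))).toReal =
      (μHE[2] (convexHull ℝ ({pN k, qN k, rN k} : Set E3))).toReal := by
  unfold pM qM rM
  rw [if_pos h, if_pos h, if_pos h]

theorem areaM_eq (a : ℝ) (ha : 0 ≤ a) :
    (μHE[2] (convexHull ℝ ({pM (2 * NN), qM a (2 * NN), rM (2 * NN)} : Set E3))).toReal = a := by
  unfold pM qM rM
  rw [if_neg (lt_irrefl _), if_neg (lt_irrefl _), if_neg (lt_irrefl _), if_pos rfl, if_pos rfl,
    muHE_triangle]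
  have hg : gram ((!₂[2 * a, 0, 0] : E3) - 0) ((!₂[0, 1, 0] : E3) - 0) = (2 * a) ^ 2 := by
    unfold gram
    rw [sub_zero, sub_zero, norm_sq_E3, norm_sq_E3, inner_E3]
    simp
  rw [hg, Real.sqrt_sq (by linarith), ENNReal.toReal_ofReal (by linarith)]
  ring

theorem areaM_gt (a : ℝ) (k : ℕ) (h : 2 * NN < k) :
    (μHE[2] (convexHull ℝ ({pM k, qM a k, rM k} : Set E3))).toReal = 0 := by
  unfold pM qM rM
  have h1 : ¬ k < 2 * NN := by omega
  have h2 : ¬ k = 2 * NN := by omega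
  rw [if_neg h1, if_neg h1, if_neg h1, if_neg h2, if_neg h2, muHE_triangle]
  simp [gram]

theorem sum_areaM (a : ℝ) (ha : 0 ≤ a) (m : ℕ) (hm : 2 * NN + 1 ≤ m) :
    ∑ k ∈ Finset.range m, (μHE[2] (convexHull ℝ ({pM k, qM a k, rM k} : Set E3))).toReal =
      Real.sqrt 2 * ∑ i ∈ Finset.range NN, term i + a := by
  rw [padded_sum _ (2 * NN) m hm (fun k hk => areaM_gt a k hk), areaM_eq a ha,
    Finset.sum_congr rfl (fun k hk => areaM_lt a k (Finset.mem_range.mp hk)), sum_areaN]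

/-- second part of S0325 from the two arithmetic inputs -/
theorem S0325_part2_of (h_arith : ArithHyp) (h_area : AreaHyp) :
    ∀ ε : ℝ, 0 < ε → ε ≤ 1 / 2000 →
      ∃ (u p q r : Fin (2 * ⌈2 / ε ^ 2⌉₊) → E3),
        (∀ i, ‖u i‖ = 1) ∧
        (∀ i, inner ℝ (p i) (u i) = 0 ∧ inner ℝ (q i) (u i) = 0 ∧ inner ℝ (r i) (u i) = 0) ∧
        K0 ⊆ ⋃ i, {x : E3 | ∃ b ∈ convexHull ℝ {p i, q i, r i}, ∃ t : ℝ, x = b + t • u i} ∧
        abs ((∑ i, (μHE[2] (convexHull ℝ ({p i, q i, r i} : Set E3))).toReal) / Real.sqrt 2 -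
            (1 / 2 - 13 / 6000 * ε ^ 2)) ≤ 2 * ε ^ 4 := by
  intro ε hε hε2
  have hs := sqrt2_pos
  -- size of the index set
  have hceil : 8000000 ≤ ⌈2 / ε ^ 2⌉₊ := by
    have h1 : (8000000 : ℝ) ≤ 2 / ε ^ 2 := by
      rw [le_div_iff₀ (by positivity)]
      have : ε ^ 2 ≤ (1 / 2000) ^ 2 := pow_le_pow_left₀ hε.le hε2 2
      nlinarith
    have h2 : (8000000 : ℝ) ≤ (⌈2 / ε ^ 2⌉₊ : ℝ) := le_trans h1 (Nat.le_ceil _)
    exact_mod_cast h2
  have hm : 2 * NN + 1 ≤ 2 * ⌈2 / ε ^ 2⌉₊ := by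
    have : NN = 4000000 := rfl
    omega
  -- padding area
  set a : ℝ := Real.sqrt 2 * (1 / 2 - 13 / 6000 * ε ^ 2) -
    Real.sqrt 2 * ∑ i ∈ Finset.range NN, term i with ha
  have ha0 : 0 ≤ a := by
    have h1 := sum_term_le h_area
    have h2 : ε ^ 2 ≤ (1 / 2000) ^ 2 := pow_le_pow_left₀ hε.le hε2 2
    have h3 : ∑ i ∈ Finset.range NN, term i ≤ 1 / 2 - 13 / 6000 * ε ^ 2 := by linarith
    rw [ha, ← mul_sub]
    exact mul_nonneg hs.le (by linarith)
  refine ⟨fun i => uM i, fun i => pM i, fun i => qM a i, fun i => rM i,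
    fun i => uM_norm i, fun i => pqrM_orth a i, ?_, ?_⟩
  · intro P hP
    obtain ⟨k, hk, hmem⟩ := coverN h_arith P hP
    refine Set.mem_iUnion.mpr ⟨⟨k, by omega⟩, ?_⟩
    show ∃ b ∈ convexHull ℝ {pM k, qM a k, rM k}, ∃ t : ℝ, P = b + t • uM k
    unfold pM qM rM uM
    rw [if_pos hk, if_pos hk, if_pos hk, if_pos hk]
    exact hmem
  · rw [Fin.sum_univ_eq_sum_range
      (fun k => (μHE[2] (convexHull ℝ ({pM k, qM a k, rM k} : Set E3))).toReal)
      (2 * ⌈2 / ε ^ 2⌉₊), sum_areaM a ha0 _ hm]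
    have e : (Real.sqrt 2 * ∑ i ∈ Finset.range NN, term i + a) / Real.sqrt 2 -
        (1 / 2 - 13 / 6000 * ε ^ 2) = 0 := by
      rw [ha]
      field_simp
      ring
    rw [e, abs_zero]
    positivity

/-- S0324 from the two arithmetic inputs -/
theorem S0324_of (h_arith : ArithHyp) (h_area : AreaHyp) :
    ∃ (m : ℕ) (u p q r : Fin m → E3),
      (∀ i, ‖u i‖ = 1) ∧
      (∀ i, inner ℝ (p i) (u i) = 0 ∧ inner ℝ (q i) (u i) = 0 ∧ inner ℝ (r i) (u i) = 0) ∧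
      K0 ⊆ ⋃ i, {x : E3 | ∃ b ∈ convexHull ℝ {p i, q i, r i}, ∃ t : ℝ, x = b + t • u i} ∧
      ∃ δ : ℝ, 0 < δ ∧ ∀ v : E3, ‖v‖ = 1 →
        ∑ i, (μH[(2 : ℝ)] (convexHull ℝ {p i, q i, r i})).toReal + δ ≤
          (μH[(2 : ℝ)] ((fun y => y - inner ℝ y v • v) '' K0)).toReal / 2 := by
  obtain ⟨m, u, p, q, r, hu, horth, hcov, hsum⟩ := cover_K0_of h_arith h_area
  refine ⟨m, u, p, q, r, hu, horth, hcov, ?_⟩
  set κ := Measure.addHaarScalarFactor (volume : Measure (EuclideanSpace ℝ (Fin 2)))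
    μH[((2 : ℕ) : ℝ)] with hκ
  have hκ0 : κ ≠ 0 := Measure.addHaarScalarFactor_volume_hausdorffMeasure_ne_zero 2
  have hκpos : 0 < (κ : ℝ) := by
    have : 0 < κ := pos_iff_ne_zero.mpr hκ0
    exact_mod_cast this
  have conv : ∀ S : Set E3, (μH[(2 : ℝ)] S).toReal = (μHE[2] S).toReal / (κ : ℝ) := by
    intro S
    rw [muHE_eq_smul_muH S, ← hκ, ENNReal.smul_def, smul_eq_mul, ENNReal.toReal_mul,
      ENNReal.coe_toReal]
    field_simp
  have hs := sqrt2_pos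
  refine ⟨Real.sqrt 2 * (13 / 6000 * (1 / 2000) ^ 2) / (κ : ℝ), by positivity, ?_⟩
  intro v hv
  have hmin := minProjection_K0 v hv
  have hfin := projection_K0_lt_top v hv
  have hreal : Real.sqrt 2 ≤ (μHE[2] ((fun y : E3 => y - inner ℝ y v • v) '' K0)).toReal := by
    have := ENNReal.toReal_mono hfin.ne hmin
    rwa [ENNReal.toReal_ofReal hs.le] at this
  rw [conv, Finset.sum_congr rfl (fun i _ => conv _), ← Finset.sum_div]
  have h1 : (∑ i, (μHE[2] (convexHull ℝ ({p i, q i, r i} : Set E3))).toReal) / (κ : ℝ) +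
      Real.sqrt 2 * (13 / 6000 * (1 / 2000) ^ 2) / (κ : ℝ) ≤ Real.sqrt 2 / 2 / (κ : ℝ) := by
    rw [← add_div]
    apply div_le_div_of_nonneg_right _ hκpos.le
    linarith
  have h2 : Real.sqrt 2 / 2 / (κ : ℝ) ≤
      (μHE[2] ((fun y : E3 => y - inner ℝ y v • v) '' K0)).toReal / (κ : ℝ) / 2 := by
    rw [div_div, div_div, mul_comm (κ : ℝ) 2]
    apply div_le_div_of_nonneg_right hreal (by positivity)
  linarith

end Crest.Agent.Helper7
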