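import Crest.Agent.Helper7.K0
import Crest.Agent.Helper7.CoverDefs

set_option autoImplicit false
set_option linter.unusedSectionVars false
set_option linter.unusedVariables false

open MeasureTheory
open scoped ENNReal NNReal

namespace Crest.Agent.Helper7

open Crest.Agent.Helper7.Cover

theorem det3_smul_right (a b c : E3) (t : ℝ) : det3 a b (t • c) = t * det3 a b c := by
  unfold det3
  simp only [PiLp.smul_apply, smul_eq_mul]
  ring

/-- a point of a cylinder over a triangle (axis `d`) lies in the cylinder over the projected base -/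
theorem mem_cylinder (A B C d W P : E3) (x : ℝ) (hd : d ≠ 0)
    (hW : W ∈ convexHull ℝ ({A, B, C} : Set E3)) (hP : P = W + x • d) :
    ∃ b ∈ convexHull ℝ ({projL (‖d‖⁻¹ • d) A, projL (‖d‖⁻¹ • d) B, projL (‖d‖⁻¹ • d) C} : Set E3),
      ∃ t : ℝ, P = b + t • (‖d‖⁻¹ • d) := by
  set u : E3 := ‖d‖⁻¹ • d with hu
  have hdn : ‖d‖ ≠ 0 := norm_ne_zero_iff.mpr hd
  have hdu : d = ‖d‖ • u := by rw [hu, smul_smul, mul_inv_cancel₀ hdn, one_smul]
  refine ⟨projL u W, ?_, inner ℝ W u + x * ‖d‖, ?_⟩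
  · rw [← projL_image_triple]
    exact ⟨W, hW, rfl⟩
  · rw [hP, projL_apply]
    conv_lhs => rw [hdu]
    rw [add_smul, smul_smul]
    abel

/-- area of the projected base of a cylinder over a triangle -/
theorem cylinder_base_area (A B C d : E3) (hd : d ≠ 0) :
    μHE[2] (convexHull ℝ ({projL (‖d‖⁻¹ • d) A, projL (‖d‖⁻¹ • d) B,
      projL (‖d‖⁻¹ • d) C} : Set E3)) = ENNReal.ofReal (|det3 (B - A) (C - A) d| / (2 * ‖d‖)) := by
  have hdn : 0 < ‖d‖ := norm_pos_iff.mpr hd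
  have hu1 : ‖‖d‖⁻¹ • d‖ = 1 := by
    rw [norm_smul, norm_inv, norm_norm, inv_mul_cancel₀ hdn.ne']
  rw [← projL_image_triple, proj_triangle_area _ _ _ _ hu1, det3_smul_right,
    abs_mul, abs_inv, abs_norm]
  congr 1
  field_simp

theorem mem_triangle (p q r : E3) (a b : ℝ) (ha : 0 ≤ a) (hb : 0 ≤ b) (hab : a + b ≤ 1) :
    p + (a • (q - p) + b • (r - p)) ∈ convexHull ℝ ({p, q, r} : Set E3) := by
  rw [convexHull_triple_eq]
  exact ⟨_, ⟨!₂[a, b], ⟨ha, hb, hab⟩, rfl⟩, rfl⟩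

/-- axis direction of the lower cylinder `i` -/
noncomputable def dL (i : ℕ) : E3 := !₂[1, cc * AA i, Real.sqrt 2 * (cc * tau i)]
noncomputable def V1 (i : ℕ) : E3 := !₂[0, tt i * RR i, Real.sqrt 2 * RR i]
noncomputable def V2 (i : ℕ) : E3 := !₂[0, tt (i + 1) * RR i, Real.sqrt 2 * RR i]

/-- axis direction of the upper cylinder `j` -/
noncomputable def dU (j : ℕ) : E3 := !₂[-(cc * AA j), 1, Real.sqrt 2 * (cc * tau j)]
noncomputable def O' : E3 := !₂[0, 0, Real.sqrt 2]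
noncomputable def V1' (j : ℕ) : E3 := !₂[tt j * RR j, 0, Real.sqrt 2 * (1 - RR j)]
noncomputable def V2' (j : ℕ) : E3 := !₂[tt (j + 1) * RR j, 0, Real.sqrt 2 * (1 - RR j)]

theorem tt_succ (i : ℕ) : tt (i + 1) = tt i + dd := by
  unfold tt; push_cast; ring

theorem dd_pos : 0 < dd := by unfold dd; norm_num

theorem RR_pos (i : ℕ) : 0 < RR i := by
  unfold RR
  have : 0 ≤ cc ^ 2 * ((tau i ^ 2 + tau i ^ 4) / 4 + ee) := by
    unfold ee; positivity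
  linarith

theorem norm_sq_dL (i : ℕ) : ‖dL i‖ ^ 2 = 1 + ww i := by
  rw [norm_sq_E3]
  unfold dL ww
  simp
  have h2 := sqrt2_sq
  linear_combination (cc ^ 2 * tau i ^ 2) * h2

theorem norm_sq_dU (j : ℕ) : ‖dU j‖ ^ 2 = 1 + ww j := by
  rw [norm_sq_E3]
  unfold dU ww
  simp
  have h2 := sqrt2_sq
  linear_combination (cc ^ 2 * tau j ^ 2) * h2

theorem ww_nonneg (i : ℕ) : 0 ≤ ww i := by unfold ww; positivity

theorem norm_dL (i : ℕ) : ‖dL i‖ = Real.sqrt (1 + ww i) := by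
  rw [← norm_sq_dL, Real.sqrt_sq (norm_nonneg _)]

theorem norm_dU (j : ℕ) : ‖dU j‖ = Real.sqrt (1 + ww j) := by
  rw [← norm_sq_dU, Real.sqrt_sq (norm_nonneg _)]

theorem dL_ne_zero (i : ℕ) : dL i ≠ 0 := by
  intro h
  have := norm_sq_dL i
  rw [h, norm_zero] at this
  have := ww_nonneg i
  nlinarith

theorem dU_ne_zero (j : ℕ) : dU j ≠ 0 := by
  intro h
  have := norm_sq_dU j
  rw [h, norm_zero] at this
  have := ww_nonneg j
  nlinarith

theorem det_lower (i : ℕ) :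
    det3 (V1 i - 0) (V2 i - 0) (dL i) = -(Real.sqrt 2 * RR i ^ 2 * dd) := by
  unfold det3 V1 V2 dL
  rw [tt_succ]
  simp
  ring

theorem det_upper (j : ℕ) :
    det3 (V1' j - O') (V2' j - O') (dU j) = -(Real.sqrt 2 * RR j ^ 2 * dd) := by
  unfold det3 V1' V2' O' dU
  rw [tt_succ]
  simp
  ring

theorem ext3 (a b : E3) (h0 : a 0 = b 0) (h1 : a 1 = b 1) (h2 : a 2 = b 2) : a = b := by
  ext k
  fin_cases k
  · exact h0
  · exact h1
  · exact h2

@[simp] theorem V1_0 (i : ℕ) : V1 i 0 = 0 := rfl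
@[simp] theorem V1_1 (i : ℕ) : V1 i 1 = tt i * RR i := rfl
@[simp] theorem V1_2 (i : ℕ) : V1 i 2 = Real.sqrt 2 * RR i := rfl
@[simp] theorem V2_0 (i : ℕ) : V2 i 0 = 0 := rfl
@[simp] theorem V2_1 (i : ℕ) : V2 i 1 = tt (i + 1) * RR i := rfl
@[simp] theorem V2_2 (i : ℕ) : V2 i 2 = Real.sqrt 2 * RR i := rfl
@[simp] theorem dL_0 (i : ℕ) : dL i 0 = 1 := rfl
@[simp] theorem dL_1 (i : ℕ) : dL i 1 = cc * AA i := rfl
@[simp] theorem dL_2 (i : ℕ) : dL i 2 = Real.sqrt 2 * (cc * tau i) := rfl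
@[simp] theorem dU_0 (j : ℕ) : dU j 0 = -(cc * AA j) := rfl
@[simp] theorem dU_1 (j : ℕ) : dU j 1 = 1 := rfl
@[simp] theorem dU_2 (j : ℕ) : dU j 2 = Real.sqrt 2 * (cc * tau j) := rfl
@[simp] theorem O'_0 : O' 0 = 0 := rfl
@[simp] theorem O'_1 : O' 1 = 0 := rfl
@[simp] theorem O'_2 : O' 2 = Real.sqrt 2 := rfl
@[simp] theorem V1'_0 (j : ℕ) : V1' j 0 = tt j * RR j := rfl
@[simp] theorem V1'_1 (j : ℕ) : V1' j 1 = 0 := rfl
@[simp] theorem V1'_2 (j : ℕ) : V1' j 2 = Real.sqrt 2 * (1 - RR j) := rfl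
@[simp] theorem V2'_0 (j : ℕ) : V2' j 0 = tt (j + 1) * RR j := rfl
@[simp] theorem V2'_1 (j : ℕ) : V2' j 1 = 0 := rfl
@[simp] theorem V2'_2 (j : ℕ) : V2' j 2 = Real.sqrt 2 * (1 - RR j) := rfl

theorem bary (t0 t1 δ R s' y' : ℝ) (hδ : 0 < δ) (hR : 0 < R) (ht : t1 = t0 + δ) :
    (t1 * s' - y') / (δ * R) * (t0 * R) + (y' - t0 * s') / (δ * R) * (t1 * R) = y' ∧
    ((t1 * s' - y') / (δ * R) + (y' - t0 * s') / (δ * R)) * R = s' := by
  subst ht
  constructor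
  · field_simp
    ring
  · field_simp
    ring

theorem lower_mem (i : ℕ) (P : E3) (s : ℝ) (hs : P 2 = Real.sqrt 2 * s)
    (h : LowerCond i (P 0) (P 1) s) :
    ∃ b ∈ convexHull ℝ ({projL (‖dL i‖⁻¹ • dL i) 0, projL (‖dL i‖⁻¹ • dL i) (V1 i),
        projL (‖dL i‖⁻¹ • dL i) (V2 i)} : Set E3),
      ∃ t : ℝ, P = b + t • (‖dL i‖⁻¹ • dL i) := by
  obtain ⟨h0, h1, h2, h3⟩ := h
  have hR := RR_pos i
  have hd := dd_pos
  obtain ⟨hb1, hb2⟩ := bary (tt i) (tt (i + 1)) dd (RR i) (s - cc * P 0 * tau i)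
    (P 1 - cc * P 0 * AA i) hd hR (tt_succ i)
  set l1 := (tt (i + 1) * (s - cc * P 0 * tau i) - (P 1 - cc * P 0 * AA i)) / (dd * RR i) with hl1d
  set l2 := ((P 1 - cc * P 0 * AA i) - tt i * (s - cc * P 0 * tau i)) / (dd * RR i) with hl2d
  have hl1 : 0 ≤ l1 := div_nonneg (by linarith) (by positivity)
  have hl2 : 0 ≤ l2 := div_nonneg (by linarith) (by positivity)
  have hl12 : l1 + l2 ≤ 1 := by
    by_contra hcon
    push Not at hcon
    nlinarith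
  apply mem_cylinder 0 (V1 i) (V2 i) (dL i) (0 + (l1 • (V1 i - 0) + l2 • (V2 i - 0))) P (P 0)
    (dL_ne_zero i) (mem_triangle 0 (V1 i) (V2 i) l1 l2 hl1 hl2 hl12)
  apply ext3
  · simp
  · simp only [PiLp.add_apply, PiLp.smul_apply, PiLp.sub_apply, PiLp.zero_apply, smul_eq_mul,
      V1_1, V2_1, dL_1]
    linarith
  · simp only [PiLp.add_apply, PiLp.smul_apply, PiLp.sub_apply, PiLp.zero_apply, smul_eq_mul,
      V1_2, V2_2, dL_2]
    rw [hs]
    have e : 0 + (l1 * (Real.sqrt 2 * RR i - 0) + l2 * (Real.sqrt 2 * RR i - 0)) +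
        P 0 * (Real.sqrt 2 * (cc * tau i)) =
        Real.sqrt 2 * ((l1 + l2) * RR i + P 0 * (cc * tau i)) := by ring
    rw [e, hb2]
    ring

theorem upper_mem (j : ℕ) (P : E3) (s : ℝ) (hs : P 2 = Real.sqrt 2 * s)
    (h : UpperCond j (P 0) (P 1) s) :
    ∃ b ∈ convexHull ℝ ({projL (‖dU j‖⁻¹ • dU j) O', projL (‖dU j‖⁻¹ • dU j) (V1' j),
        projL (‖dU j‖⁻¹ • dU j) (V2' j)} : Set E3),
      ∃ t : ℝ, P = b + t • (‖dU j‖⁻¹ • dU j) := by
  obtain ⟨h0, h1, h2, h3⟩ := h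
  have hR := RR_pos j
  have hd := dd_pos
  obtain ⟨hb1, hb2⟩ := bary (tt j) (tt (j + 1)) dd (RR j) (1 - s + cc * P 1 * tau j)
    (P 0 + cc * P 1 * AA j) hd hR (tt_succ j)
  set l1 := (tt (j + 1) * (1 - s + cc * P 1 * tau j) - (P 0 + cc * P 1 * AA j)) / (dd * RR j)
    with hl1d
  set l2 := ((P 0 + cc * P 1 * AA j) - tt j * (1 - s + cc * P 1 * tau j)) / (dd * RR j) with hl2d
  have hl1 : 0 ≤ l1 := div_nonneg (by linarith) (by positivity)
  have hl2 : 0 ≤ l2 := div_nonneg (by linarith) (by positivity)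
  have hl12 : l1 + l2 ≤ 1 := by
    by_contra hcon
    push Not at hcon
    nlinarith
  apply mem_cylinder O' (V1' j) (V2' j) (dU j)
    (O' + (l1 • (V1' j - O') + l2 • (V2' j - O'))) P (P 1)
    (dU_ne_zero j) (mem_triangle O' (V1' j) (V2' j) l1 l2 hl1 hl2 hl12)
  apply ext3
  · simp only [PiLp.add_apply, PiLp.smul_apply, PiLp.sub_apply, smul_eq_mul,
      V1'_0, V2'_0, dU_0, O'_0]
    linarith
  · simp
  · simp only [PiLp.add_apply, PiLp.smul_apply, PiLp.sub_apply, smul_eq_mul,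
      V1'_2, V2'_2, dU_2, O'_2]
    rw [hs]
    have e : Real.sqrt 2 + (l1 * (Real.sqrt 2 * (1 - RR j) - Real.sqrt 2) +
        l2 * (Real.sqrt 2 * (1 - RR j) - Real.sqrt 2)) + P 1 * (Real.sqrt 2 * (cc * tau j)) =
        Real.sqrt 2 * (1 - (l1 + l2) * RR j + P 1 * (cc * tau j)) := by ring
    rw [e, hb2]
    ring

theorem lower_area (i : ℕ) :
    μHE[2] (convexHull ℝ ({projL (‖dL i‖⁻¹ • dL i) 0, projL (‖dL i‖⁻¹ • dL i) (V1 i),
        projL (‖dL i‖⁻¹ • dL i) (V2 i)} : Set E3)) =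
      ENNReal.ofReal (Real.sqrt 2 * (dd * RR i ^ 2 / Real.sqrt (1 + ww i)) / 2) := by
  rw [cylinder_base_area _ _ _ _ (dL_ne_zero i), det_lower, norm_dL, abs_neg,
    abs_of_nonneg (by have := dd_pos; positivity)]
  congr 1
  ring

theorem upper_area (j : ℕ) :
    μHE[2] (convexHull ℝ ({projL (‖dU j‖⁻¹ • dU j) O', projL (‖dU j‖⁻¹ • dU j) (V1' j),
        projL (‖dU j‖⁻¹ • dU j) (V2' j)} : Set E3)) =
      ENNReal.ofReal (Real.sqrt 2 * (dd * RR j ^ 2 / Real.sqrt (1 + ww j)) / 2) := by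
  rw [cylinder_base_area _ _ _ _ (dU_ne_zero j), det_upper, norm_dU, abs_neg,
    abs_of_nonneg (by have := dd_pos; positivity)]
  congr 1
  ring

theorem K0_coords (P : E3) (hP : P ∈ K0) :
    ∃ s : ℝ, P 2 = Real.sqrt 2 * s ∧ |P 0| ≤ 1 - s ∧ |P 1| ≤ s := by
  have hr := sqrt2_pos
  let H : Set E3 := {Q | Q 0 * Real.sqrt 2 + Q 2 ≤ Real.sqrt 2 ∧
    -(Q 0 * Real.sqrt 2) + Q 2 ≤ Real.sqrt 2 ∧ Q 1 * Real.sqrt 2 ≤ Q 2 ∧
    -(Q 1 * Real.sqrt 2) ≤ Q 2}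
  have hconv : Convex ℝ H := by
    intro A hA B hB a b ha hb hab
    obtain ⟨a1, a2, a3, a4⟩ := hA
    obtain ⟨b1, b2, b3, b4⟩ := hB
    have hb' : b = 1 - a := by linarith
    subst hb'
    refine ⟨?_, ?_, ?_, ?_⟩ <;>
      simp only [PiLp.add_apply, PiLp.smul_apply, smul_eq_mul]
    · nlinarith [mul_le_mul_of_nonneg_left a1 ha, mul_le_mul_of_nonneg_left b1 hb]
    · nlinarith [mul_le_mul_of_nonneg_left a2 ha, mul_le_mul_of_nonneg_left b2 hb]
    · nlinarith [mul_le_mul_of_nonneg_left a3 ha, mul_le_mul_of_nonneg_left b3 hb]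
    · nlinarith [mul_le_mul_of_nonneg_left a4 ha, mul_le_mul_of_nonneg_left b4 hb]
  have hsub : ({P1, P2, P3, P4} : Set E3) ⊆ H := by
    rintro Q (rfl | rfl | rfl | rfl)
    · refine ⟨?_, ?_, ?_, ?_⟩ <;> simp <;> linarith
    · refine ⟨?_, ?_, ?_, ?_⟩ <;> simp <;> linarith
    · refine ⟨?_, ?_, ?_, ?_⟩ <;> simp <;> linarith
    · refine ⟨?_, ?_, ?_, ?_⟩ <;> simp <;> linarith
  obtain ⟨c1, c2, c3, c4⟩ := convexHull_min hsub hconv hP
  have hs : P 2 = Real.sqrt 2 * (P 2 / Real.sqrt 2) := by field_simp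
  generalize P 2 / Real.sqrt 2 = s at hs
  rw [hs] at c1 c2 c3 c4
  have k1 : P 0 + s ≤ 1 := by
    by_contra hcon
    push Not at hcon
    nlinarith [mul_pos hr (sub_pos.mpr hcon)]
  have k2 : -(P 0) + s ≤ 1 := by
    by_contra hcon
    push Not at hcon
    nlinarith [mul_pos hr (sub_pos.mpr hcon)]
  have k3 : P 1 ≤ s := by
    by_contra hcon
    push Not at hcon
    nlinarith [mul_pos hr (sub_pos.mpr hcon)]
  have k4 : -(P 1) ≤ s := by
    by_contra hcon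
    push Not at hcon
    nlinarith [mul_pos hr (sub_pos.mpr hcon)]
  refine ⟨s, hs, ?_, ?_⟩
  · rw [abs_le]; constructor <;> linarith
  · rw [abs_le]; constructor <;> linarith

end Crest.Agent.Helper7
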