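import Crest.Prelude.Def_Diamond

set_option autoImplicit false

namespace Crest.Agent.Helper7

open Crest Crest.AnalysisR
open Classical

/-- edge-1-Lipschitz potentials on the diamond graph -/
def EdgeLip (k : ℕ) (φ : DiamondVertex k → ℝ) : Prop :=
  ∀ e : DiamondEdge k, |φ (diamondSrc k e) - φ (diamondTgt k e)| ≤ 1

theorem diamond_adj_iff (k : ℕ) (u v : DiamondVertex k) :
    (diamondGraph k).Adj u v ↔ u ≠ v ∧ ((∃ e : DiamondEdge k, diamondSrc k e = u ∧ diamondTgt k e = v) ∨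
      (∃ e : DiamondEdge k, diamondSrc k e = v ∧ diamondTgt k e = u)) := by
  simp [diamondGraph, SimpleGraph.fromRel_adj]

theorem EdgeLip.adj {k : ℕ} {φ : DiamondVertex k → ℝ} (h : EdgeLip k φ) {u v : DiamondVertex k}
    (hadj : (diamondGraph k).Adj u v) : |φ u - φ v| ≤ 1 := by
  rw [diamond_adj_iff] at hadj
  obtain ⟨_, ⟨e, rfl, rfl⟩ | ⟨e, rfl, rfl⟩⟩ := hadj
  · exact h e
  · rw [abs_sub_comm]; exact h e

theorem EdgeLip.walk {k : ℕ} {φ : DiamondVertex k → ℝ} (h : EdgeLip k φ) {u v : DiamondVertex k}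
    (p : (diamondGraph k).Walk u v) : |φ u - φ v| ≤ (p.length : ℝ) := by
  induction p with
  | nil => simp
  | @cons a b c hadj p ih =>
    have h1 := h.adj hadj
    rw [SimpleGraph.Walk.length_cons]
    push_cast
    have h2 : |φ a - φ c| ≤ |φ a - φ b| + |φ b - φ c| := abs_sub_le _ _ _
    linarith

theorem adj_zero : (diamondGraph 0).Adj (false : Bool) (true : Bool) := by
  rw [diamond_adj_iff]
  exact ⟨Bool.false_ne_true, Or.inl ⟨(), rfl, rfl⟩⟩

theorem adj_succ_false (k : ℕ) (e : DiamondEdge k) (i : ℕ) :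
    (diamondGraph (k + 1)).Adj (Sum.inl (diamondSrc k e)) (Sum.inr (e, i)) := by
  rw [diamond_adj_iff]
  exact ⟨by simp, Or.inl ⟨(e, i, false), rfl, rfl⟩⟩

theorem adj_succ_true (k : ℕ) (e : DiamondEdge k) (i : ℕ) :
    (diamondGraph (k + 1)).Adj (Sum.inr (e, i)) (Sum.inl (diamondTgt k e)) := by
  rw [diamond_adj_iff]
  exact ⟨by simp, Or.inl ⟨(e, i, true), rfl, rfl⟩⟩

theorem reachable_inl_of_adj (k : ℕ) {u v : DiamondVertex k} (h : (diamondGraph k).Adj u v) :
    (diamondGraph (k + 1)).Reachable (Sum.inl u) (Sum.inl v) := by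
  rw [diamond_adj_iff] at h
  obtain ⟨_, ⟨e, rfl, rfl⟩ | ⟨e, rfl, rfl⟩⟩ := h
  · exact (adj_succ_false k e 0).reachable.trans (adj_succ_true k e 0).reachable
  · exact ((adj_succ_false k e 0).reachable.trans (adj_succ_true k e 0).reachable).symm

theorem reachable_inl_of_walk (k : ℕ) {u v : DiamondVertex k} (p : (diamondGraph k).Walk u v) :
    (diamondGraph (k + 1)).Reachable (Sum.inl u) (Sum.inl v) := by
  induction p with
  | nil => exact SimpleGraph.Reachable.refl _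
  | cons hadj p ih => exact (reachable_inl_of_adj k hadj).trans ih

theorem diamond_reachable (k : ℕ) : ∀ u v : DiamondVertex k, (diamondGraph k).Reachable u v := by
  induction k with
  | zero =>
    have key : ∀ u : DiamondVertex 0, (diamondGraph 0).Reachable (false : Bool) u := by
      intro u
      match u with
      | false => exact SimpleGraph.Reachable.refl _
      | true => exact adj_zero.reachable
    intro u v
    exact (key u).symm.trans (key v)
  | succ k ih =>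
    have key0 : ∀ u v : DiamondVertex k,
        (diamondGraph (k + 1)).Reachable (Sum.inl u) (Sum.inl v) := by
      intro u v
      obtain ⟨p⟩ := ih u v
      exact reachable_inl_of_walk k p
    have key : ∀ u : DiamondVertex (k + 1), ∃ v : DiamondVertex k,
        (diamondGraph (k + 1)).Reachable u (Sum.inl v) := by
      intro u
      match u with
      | Sum.inl v => exact ⟨v, SimpleGraph.Reachable.refl _⟩
      | Sum.inr (e, i) => exact ⟨diamondTgt k e, (adj_succ_true k e i).reachable⟩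
    intro u v
    obtain ⟨u', hu⟩ := key u
    obtain ⟨v', hv⟩ := key v
    exact hu.trans ((key0 u' v').trans hv.symm)

theorem EdgeLip.le_dist {k : ℕ} {φ : DiamondVertex k → ℝ} (h : EdgeLip k φ) (u v : DiamondVertex k) :
    |φ u - φ v| ≤ (diamondDist k u v : ℝ) := by
  obtain ⟨p, hp⟩ := (diamond_reachable k u v).exists_walk_length_eq_dist
  have := h.walk p
  rw [hp] at this
  exact this

theorem dist_src_tgt_le_one (k : ℕ) (e : DiamondEdge k) :
    diamondDist k (diamondSrc k e) (diamondTgt k e) ≤ 1 := by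
  unfold diamondDist
  by_cases h : diamondSrc k e = diamondTgt k e
  · rw [h, SimpleGraph.dist_self]; exact Nat.zero_le _
  · have : (diamondGraph k).Adj (diamondSrc k e) (diamondTgt k e) := by
      rw [diamond_adj_iff]
      exact ⟨h, Or.inl ⟨e, rfl, rfl⟩⟩
    exact (SimpleGraph.dist_eq_one_iff_adj.mpr this).le

/-- base potential on `D 0` -/
noncomputable def pot0 : DiamondVertex 0 → ℝ := fun b => if (b : Bool) = true then 1 else 0

theorem pot0_edgeLip : EdgeLip 0 pot0 := by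
  intro e
  show |pot0 (false : Bool) - pot0 (true : Bool)| ≤ 1
  simp [pot0]

/-- lift of a potential from `D k` to `D (k+1)` -/
noncomputable def potLift (k : ℕ) (φ : DiamondVertex k → ℝ) : DiamondVertex (k + 1) → ℝ :=
  fun u => match u with
    | Sum.inl v => 2 * φ v
    | Sum.inr p => φ (diamondSrc k p.1) + φ (diamondTgt k p.1)

theorem potLift_edgeLip (k : ℕ) (φ : DiamondVertex k → ℝ) (h : EdgeLip k φ) :
    EdgeLip (k + 1) (potLift k φ) := by
  rintro ⟨e, i, b⟩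
  have he := h e
  cases b
  · show |2 * φ (diamondSrc k e) - (φ (diamondSrc k e) + φ (diamondTgt k e))| ≤ 1
    have : 2 * φ (diamondSrc k e) - (φ (diamondSrc k e) + φ (diamondTgt k e)) =
        φ (diamondSrc k e) - φ (diamondTgt k e) := by ring
    rw [this]; exact he
  · show |(φ (diamondSrc k e) + φ (diamondTgt k e)) - 2 * φ (diamondTgt k e)| ≤ 1
    have : (φ (diamondSrc k e) + φ (diamondTgt k e)) - 2 * φ (diamondTgt k e) =
        φ (diamondSrc k e) - φ (diamondTgt k e) := by ring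
    rw [this]; exact he

/-- bump potential separating two middle vertices of the same edge -/
noncomputable def potBump (k : ℕ) (e : DiamondEdge k) (i j : ℕ) : DiamondVertex (k + 1) → ℝ :=
  fun u => match u with
    | Sum.inl _ => 0
    | Sum.inr p => if p = (e, i) then 1 else if p = (e, j) then -1 else 0

theorem potBump_inr_abs (k : ℕ) (e : DiamondEdge k) (i j : ℕ) (p : DiamondEdge k × ℕ) :
    |potBump k e i j (Sum.inr p)| ≤ 1 := by
  show |(if p = (e, i) then (1 : ℝ) else if p = (e, j) then -1 else 0)| ≤ 1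
  split_ifs <;> simp

theorem potBump_edgeLip (k : ℕ) (e : DiamondEdge k) (i j : ℕ) :
    EdgeLip (k + 1) (potBump k e i j) := by
  rintro ⟨e', i', b⟩
  have h := potBump_inr_abs k e i j (e', i')
  cases b
  · show |(0 : ℝ) - potBump k e i j (Sum.inr (e', i'))| ≤ 1
    rw [zero_sub, abs_neg]; exact h
  · show |potBump k e i j (Sum.inr (e', i')) - (0 : ℝ)| ≤ 1
    rw [sub_zero]; exact h

theorem potBump_diff (k : ℕ) (e : DiamondEdge k) (i j : ℕ) (hij : i ≠ j) :
    potBump k e i j (Sum.inr (e, i)) - potBump k e i j (Sum.inr (e, j)) = 2 := by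
  show (if (e, i) = (e, i) then (1 : ℝ) else if (e, i) = (e, j) then -1 else 0) -
    (if (e, j) = (e, i) then (1 : ℝ) else if (e, j) = (e, j) then -1 else 0) = 2
  have h1 : ¬ ((e, j) = (e, i)) := by
    intro h; exact hij (Prod.ext_iff.mp h).2.symm
  simp [h1]
  norm_num

section Normed

variable {X : Type*} [NormedAddCommGroup X] [NormedSpace ℝ X]

theorem norm_add_smul_le_max (x y : X) (s : ℝ) (hs0 : 0 ≤ s) (hs1 : s ≤ 1) :
    ‖x + s • y‖ ≤ max ‖x + y‖ ‖x - y‖ := by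
  have h : x + s • y = ((1 + s) / 2) • (x + y) + ((1 - s) / 2) • (x - y) := by
    module
  rw [h]
  have h1 : ‖((1 + s) / 2) • (x + y)‖ = (1 + s) / 2 * ‖x + y‖ := by
    rw [norm_smul, Real.norm_of_nonneg (by linarith)]
  have h2 : ‖((1 - s) / 2) • (x - y)‖ = (1 - s) / 2 * ‖x - y‖ := by
    rw [norm_smul, Real.norm_of_nonneg (by linarith)]
  have h3 := norm_add_le (((1 + s) / 2) • (x + y)) (((1 - s) / 2) • (x - y))
  have h4 : ‖x + y‖ ≤ max ‖x + y‖ ‖x - y‖ := le_max_left _ _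
  have h5 : ‖x - y‖ ≤ max ‖x + y‖ ‖x - y‖ := le_max_right _ _
  have h6 : (1 + s) / 2 * ‖x + y‖ ≤ (1 + s) / 2 * max ‖x + y‖ ‖x - y‖ :=
    mul_le_mul_of_nonneg_left h4 (by linarith)
  have h7 : (1 - s) / 2 * ‖x - y‖ ≤ (1 - s) / 2 * max ‖x + y‖ ‖x - y‖ :=
    mul_le_mul_of_nonneg_left h5 (by linarith)
  linarith

theorem norm_sub_smul_le_max (x y : X) (s : ℝ) (hs0 : 0 ≤ s) (hs1 : s ≤ 1) :
    ‖x - s • y‖ ≤ max ‖x + y‖ ‖x - y‖ := by
  have h := norm_add_smul_le_max x (-y) s hs0 hs1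
  rw [smul_neg, ← sub_eq_add_neg, ← sub_eq_add_neg, sub_neg_eq_add, max_comm] at h
  exact h

theorem max_ge_of_modulus (F : Submodule ℝ X) (x : X) (hx : x ≠ 0) (t c : ℝ) (ht : 0 < t)
    (hmod : ∀ y ∈ F, ‖y‖ = 1 → c ≤ max ‖‖x‖⁻¹ • x + t • y‖ ‖‖x‖⁻¹ • x - t • y‖)
    (y : X) (hy : y ∈ F) (hyn : t * ‖x‖ ≤ ‖y‖) :
    ‖x‖ * c ≤ max ‖x + y‖ ‖x - y‖ := by
  have hxn : 0 < ‖x‖ := norm_pos_iff.mpr hx
  have hyn' : 0 < ‖y‖ := lt_of_lt_of_le (mul_pos ht hxn) hyn
  have hy0 : y ≠ 0 := norm_pos_iff.mp hyn'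
  have h1 : ‖‖y‖⁻¹ • y‖ = 1 := norm_smul_inv_norm hy0
  have h := hmod (‖y‖⁻¹ • y) (F.smul_mem _ hy) h1
  set s := t * ‖x‖ / ‖y‖ with hs
  have hs0 : 0 ≤ s := by positivity
  have hs1 : s ≤ 1 := by rw [hs, div_le_one hyn']; exact hyn
  have e1 : ‖x‖⁻¹ • x + t • ‖y‖⁻¹ • y = ‖x‖⁻¹ • (x + s • y) := by
    rw [smul_add, smul_smul, smul_smul, hs]
    congr 2
    field_simp
  have e2 : ‖x‖⁻¹ • x - t • ‖y‖⁻¹ • y = ‖x‖⁻¹ • (x - s • y) := by
    rw [smul_sub, smul_smul, smul_smul, hs]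
    congr 2
    field_simp
  rw [e1, e2, norm_smul, norm_smul, norm_inv, norm_norm] at h
  have h3 := norm_add_smul_le_max x y s hs0 hs1
  have h4 := norm_sub_smul_le_max x y s hs0 hs1
  have h5 : c ≤ ‖x‖⁻¹ * max ‖x + y‖ ‖x - y‖ := by
    refine le_trans h (max_le ?_ ?_)
    · exact mul_le_mul_of_nonneg_left h3 (by positivity)
    · exact mul_le_mul_of_nonneg_left h4 (by positivity)
  calc ‖x‖ * c ≤ ‖x‖ * (‖x‖⁻¹ * max ‖x + y‖ ‖x - y‖) := mul_le_mul_of_nonneg_left h5 hxn.le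
    _ = max ‖x + y‖ ‖x - y‖ := by field_simp

theorem exists_pair_close (S : Submodule ℝ X) (hS : IsClosed (S : Set X))
    (hfd : FiniteDimensional ℝ (X ⧸ S)) (w : ℕ → X) (C : ℝ) (hw : ∀ i, ‖w i‖ ≤ C)
    (γ : ℝ) (hγ : 0 < γ) :
    ∃ i j, i ≠ j ∧ ∃ y ∈ S, ‖(w i - w j) - y‖ < γ := by
  haveI : IsClosed (S : Set X) := hS
  haveI : FiniteDimensional ℝ (X ⧸ S) := hfd
  haveI : ProperSpace (X ⧸ S) := FiniteDimensional.proper_real (X ⧸ S)
  let q : ℕ → X ⧸ S := fun i => Submodule.Quotient.mk (w i)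
  have hq : ∀ n, q n ∈ Metric.closedBall (0 : X ⧸ S) C := by
    intro n
    rw [mem_closedBall_zero_iff]
    exact le_trans (Submodule.Quotient.norm_mk_le S (w n)) (hw n)
  obtain ⟨a, -, φ, hφ, hlim⟩ := tendsto_subseq_of_bounded Metric.isBounded_closedBall hq
  rw [Metric.tendsto_atTop] at hlim
  obtain ⟨N, hN⟩ := hlim (γ / 4) (by positivity)
  have h1 := hN N le_rfl
  have h2 := hN (N + 1) (Nat.le_succ N)
  refine ⟨φ N, φ (N + 1), (hφ (Nat.lt_succ_self N)).ne, ?_⟩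
  have h3 : ‖(Submodule.Quotient.mk (w (φ N) - w (φ (N + 1))) : X ⧸ S)‖ < γ / 2 := by
    rw [Submodule.Quotient.mk_sub, ← dist_eq_norm]
    have := dist_triangle_right (q (φ N)) (q (φ (N + 1))) a
    simp only [Function.comp] at h1 h2
    linarith
  obtain ⟨m, hm, hmn⟩ := Submodule.Quotient.norm_mk_lt
    (Submodule.Quotient.mk (w (φ N) - w (φ (N + 1))) : X ⧸ S) (ε := γ / 2) (by positivity)
  refine ⟨(w (φ N) - w (φ (N + 1))) - m, ?_, ?_⟩
  · rw [← Submodule.Quotient.mk_eq_zero, Submodule.Quotient.mk_sub, hm, sub_self]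
  · rw [sub_sub_cancel]; linarith

end Normed

theorem sqrt_lip (A B A' B' d d' : ℝ) (hA : 0 ≤ A) (hB : 0 ≤ B) (hd : 0 ≤ d) (hd' : 0 ≤ d')
    (hA' : 0 ≤ A') (hB' : 0 ≤ B') (h1 : A' ≤ A + d) (h2 : B' ≤ B + d') :
    Real.sqrt (A' ^ 2 + B' ^ 2) ≤ Real.sqrt (A ^ 2 + B ^ 2) + d + d' := by
  set R := Real.sqrt (A ^ 2 + B ^ 2) with hRdef
  have hR : 0 ≤ R := Real.sqrt_nonneg _
  have hR2 : R ^ 2 = A ^ 2 + B ^ 2 := Real.sq_sqrt (by positivity)
  have hRA : A ≤ R := Real.le_sqrt_of_sq_le (by nlinarith)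
  have hRB : B ≤ R := Real.le_sqrt_of_sq_le (by nlinarith)
  have e : R + d + d' = Real.sqrt ((R + d + d') ^ 2) := (Real.sqrt_sq (by positivity)).symm
  rw [e]
  apply Real.sqrt_le_sqrt
  have hA2 : A' ^ 2 ≤ (A + d) ^ 2 := pow_le_pow_left₀ hA' h1 2
  have hB2 : B' ^ 2 ≤ (B + d') ^ 2 := pow_le_pow_left₀ hB' h2 2
  nlinarith [mul_nonneg hd hd', mul_nonneg hd (sub_nonneg.mpr hRA), mul_nonneg hd' (sub_nonneg.mpr hRB),
    mul_nonneg hd hR, mul_nonneg hd' hR]

theorem diamond_claim {X : Type} [NormedAddCommGroup X] [NormedSpace ℝ X]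
    (hX : ∀ t : ℝ, 0 < t → ∀ x : X, ‖x‖ = 1 → ∀ η : ℝ, 0 < η →
      ∃ S : Submodule ℝ X, IsClosed (S : Set X) ∧ FiniteDimensional ℝ (X ⧸ S) ∧
        ∀ y ∈ S, ‖y‖ = 1 →
          Real.sqrt (1 + t ^ 2 / 4) - 1 - η ≤ max ‖x + t • y‖ ‖x - t • y‖ - 1) :
    ∀ (k : ℕ) (f : DiamondVertex k → X) (σ : ℝ), 0 < σ →
      (∀ φ : DiamondVertex k → ℝ, EdgeLip k φ → ∀ u v, σ * |φ u - φ v| ≤ ‖f u - f v‖) →
      ∀ ε : ℝ, 0 < ε → ∃ e : DiamondEdge k,
        σ * Real.sqrt (1 + (k : ℝ) / 4) - ε ≤ ‖f (diamondSrc k e) - f (diamondTgt k e)‖ := by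
  intro k
  induction k with
  | zero =>
    intro f σ hσ H ε hε
    refine ⟨(), ?_⟩
    have h := H pot0 pot0_edgeLip (false : Bool) (true : Bool)
    have h0 : |pot0 (false : Bool) - pot0 (true : Bool)| = 1 := by simp [pot0]
    rw [h0] at h
    have h1 : Real.sqrt (1 + ((0 : ℕ) : ℝ) / 4) = 1 := by simp
    rw [h1]
    show σ * 1 - ε ≤ ‖f (false : Bool) - f (true : Bool)‖
    linarith
  | succ k ih =>
    intro f σ hσ H ε hε
    set T := σ * Real.sqrt (1 + ((k + 1 : ℕ) : ℝ) / 4) with hT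
    have H' : ∀ φ : DiamondVertex k → ℝ, EdgeLip k φ → ∀ u v,
        (2 * σ) * |φ u - φ v| ≤ ‖f (Sum.inl u) - f (Sum.inl v)‖ := by
      intro φ hφ u v
      have h := H (potLift k φ) (potLift_edgeLip k φ hφ) (Sum.inl u) (Sum.inl v)
      have e : potLift k φ (Sum.inl u) - potLift k φ (Sum.inl v) = 2 * (φ u - φ v) := by
        show 2 * φ u - 2 * φ v = _
        ring
      rw [e, abs_mul, abs_two] at h
      linarith
    set ε₁ := min ε σ with hε₁
    have hε₁pos : 0 < ε₁ := lt_min hε hσ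
    have hε₁σ : ε₁ ≤ σ := min_le_right _ _
    have hε₁ε : ε₁ ≤ ε := min_le_left _ _
    obtain ⟨e, he⟩ := ih (fun v => f (Sum.inl v)) (2 * σ) (by linarith) H' ε₁ hε₁pos
    set a := f (Sum.inl (diamondSrc k e)) with ha
    set b := f (Sum.inl (diamondTgt k e)) with hb
    set w : ℕ → X := fun i => f (Sum.inr (e, i)) with hw
    have edge_false : ∀ i, ‖f (diamondSrc (k + 1) (e, i, false)) -
        f (diamondTgt (k + 1) (e, i, false))‖ = ‖a - w i‖ := fun i => rfl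
    have edge_true : ∀ i, ‖f (diamondSrc (k + 1) (e, i, true)) -
        f (diamondTgt (k + 1) (e, i, true))‖ = ‖w i - b‖ := fun i => rfl
    by_cases hA : ∃ i, T ≤ ‖a - w i‖
    · obtain ⟨i, hi⟩ := hA
      exact ⟨(e, i, false), by rw [edge_false]; linarith⟩
    push Not at hA
    set x : X := (1 / 2 : ℝ) • (b - a) with hx
    set r₀ := σ * Real.sqrt (1 + (k : ℝ) / 4) with hr₀
    have hk0 : (0 : ℝ) ≤ k := Nat.cast_nonneg k
    have hsq1 : 1 ≤ Real.sqrt (1 + (k : ℝ) / 4) := by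
      rw [Real.one_le_sqrt]
      linarith
    have hr₀σ : σ ≤ r₀ := by rw [hr₀]; nlinarith
    have hhalf : ‖(1 / 2 : ℝ)‖ = 1 / 2 := by norm_num
    have hxn : ‖x‖ = ‖a - b‖ / 2 := by
      rw [hx, norm_smul, norm_sub_rev, hhalf]; ring
    have hr : r₀ - ε₁ / 2 ≤ ‖x‖ := by rw [hxn]; linarith
    have hxpos : 0 < ‖x‖ := by linarith
    have hx0 : x ≠ 0 := norm_pos_iff.mp hxpos
    set r := ‖x‖ with hrdef
    set γ := min (σ / 2) (ε / 6) with hγ
    have hγpos : 0 < γ := lt_min (by linarith) (by linarith)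
    have hγσ : γ ≤ σ / 2 := min_le_left _ _
    have hγε : γ ≤ ε / 6 := min_le_right _ _
    set τ := σ - γ with hτ
    have hτpos : 0 < τ := by linarith
    set t := τ / r with ht
    have htpos : 0 < t := div_pos hτpos hxpos
    set η := ε / (4 * r) with hη
    have hηpos : 0 < η := by positivity
    obtain ⟨S, hScl, hSfd, hSmod⟩ := hX t htpos (r⁻¹ • x) (norm_smul_inv_norm hx0) η hηpos
    have hwb : ∀ i, ‖w i‖ ≤ ‖a‖ + T := by
      intro i
      have h1 := hA i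
      have h2 : ‖w i‖ ≤ ‖a‖ + ‖a - w i‖ := by
        have := norm_sub_le a (a - w i)
        rw [sub_sub_cancel] at this
        exact this
      linarith
    obtain ⟨i, j, hij, y', hy'S, hy'⟩ :=
      exists_pair_close S hScl hSfd w (‖a‖ + T) hwb (2 * γ) (by linarith)
    set y : X := (1 / 2 : ℝ) • y' with hy
    set y₀ : X := (1 / 2 : ℝ) • (w i - w j) with hy₀
    have hyS : y ∈ S := S.smul_mem _ hy'S
    have hyy₀ : ‖y₀ - y‖ < γ := by
      rw [hy₀, hy, ← smul_sub, norm_smul, hhalf]; linarith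
    have hwij : 2 * σ ≤ ‖w i - w j‖ := by
      have h := H (potBump k e i j) (potBump_edgeLip k e i j) (Sum.inr (e, i)) (Sum.inr (e, j))
      rw [potBump_diff k e i j hij, abs_two] at h
      linarith
    have hy₀n : σ ≤ ‖y₀‖ := by
      rw [hy₀, norm_smul, hhalf]; linarith
    have hyn : t * r ≤ ‖y‖ := by
      have h1 : t * r = τ := by rw [ht]; field_simp
      have h2 : ‖y₀‖ ≤ ‖y‖ + ‖y₀ - y‖ := by
        have := norm_add_le y (y₀ - y)
        rw [add_sub_cancel] at this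
        exact this
      rw [h1, hτ]; linarith
    have hmod : ∀ z ∈ S, ‖z‖ = 1 →
        Real.sqrt (1 + t ^ 2 / 4) - η ≤ max ‖‖x‖⁻¹ • x + t • z‖ ‖‖x‖⁻¹ • x - t • z‖ := by
      intro z hz hz1
      have := hSmod z hz hz1
      linarith
    have hmax := max_ge_of_modulus S x hx0 t (Real.sqrt (1 + t ^ 2 / 4) - η) htpos hmod y hyS hyn
    have hrs : r * Real.sqrt (1 + t ^ 2 / 4) = Real.sqrt (r ^ 2 + (τ / 2) ^ 2) := by
      have : r ^ 2 + (τ / 2) ^ 2 = r ^ 2 * (1 + t ^ 2 / 4) := by rw [ht]; field_simp; ring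
      rw [this, Real.sqrt_mul (sq_nonneg r), Real.sqrt_sq hxpos.le]
    have hrη : r * η = ε / 4 := by rw [hη]; field_simp
    have hlip := sqrt_lip r (τ / 2) r₀ (σ / 2) (ε₁ / 2) (γ / 2) hxpos.le (by linarith)
      (by linarith) (by linarith) (by positivity) (by linarith) (by linarith)
      (by rw [hτ]; linarith)
    have hT2 : Real.sqrt (r₀ ^ 2 + (σ / 2) ^ 2) = T := by
      have h1 : r₀ ^ 2 = σ ^ 2 * (1 + (k : ℝ) / 4) := by
        rw [hr₀, mul_pow, Real.sq_sqrt (by positivity)]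
      have h2 : r₀ ^ 2 + (σ / 2) ^ 2 = σ ^ 2 * (1 + ((k + 1 : ℕ) : ℝ) / 4) := by
        rw [h1]; push_cast; ring
      rw [h2, Real.sqrt_mul (sq_nonneg σ), Real.sqrt_sq hσ.le]
    have hmax2 : T - ε₁ / 2 - γ / 2 - ε / 4 ≤ max ‖x + y‖ ‖x - y‖ := by
      have : r * (Real.sqrt (1 + t ^ 2 / 4) - η) =
          Real.sqrt (r ^ 2 + (τ / 2) ^ 2) - ε / 4 := by
        rw [mul_sub, hrs, hrη]
      rw [this] at hmax
      rw [hT2] at hlip
      linarith
    have hp : x + y₀ = (1 / 2 : ℝ) • ((w i - a) + (b - w j)) := by rw [hx, hy₀]; module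
    have hm : x - y₀ = (1 / 2 : ℝ) • ((b - w i) + (w j - a)) := by rw [hx, hy₀]; module
    have hpn : ‖x + y₀‖ ≤ (‖a - w i‖ + ‖w j - b‖) / 2 := by
      rw [hp, norm_smul, hhalf]
      have := norm_add_le (w i - a) (b - w j)
      rw [norm_sub_rev (w i) a, norm_sub_rev b (w j)] at this
      linarith
    have hmn : ‖x - y₀‖ ≤ (‖w i - b‖ + ‖a - w j‖) / 2 := by
      rw [hm, norm_smul, hhalf]
      have := norm_add_le (b - w i) (w j - a)
      rw [norm_sub_rev b (w i), norm_sub_rev (w j) a] at this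
      linarith
    have hpy : ‖x + y‖ ≤ ‖x + y₀‖ + γ := by
      have e : x + y = (x + y₀) - (y₀ - y) := by abel
      rw [e]
      have := norm_sub_le (x + y₀) (y₀ - y)
      linarith
    have hmy : ‖x - y‖ ≤ ‖x - y₀‖ + γ := by
      have e : x - y = (x - y₀) + (y₀ - y) := by abel
      rw [e]
      have := norm_add_le (x - y₀) (y₀ - y)
      linarith
    have hfinal : T - ε ≤ T - ε₁ / 2 - γ / 2 - ε / 4 - γ := by linarith
    rcases le_max_iff.mp hmax2 with h | h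
    · by_cases h' : T - ε ≤ ‖a - w i‖
      · exact ⟨(e, i, false), by rw [edge_false]; exact h'⟩
      · refine ⟨(e, j, true), ?_⟩
        rw [edge_true]
        push Not at h'
        linarith
    · by_cases h' : T - ε ≤ ‖w i - b‖
      · exact ⟨(e, i, true), by rw [edge_true]; exact h'⟩
      · refine ⟨(e, j, false), ?_⟩
        rw [edge_false]
        push Not at h'
        linarith

/-- TASK D: the generic diamond lemma. -/
theorem diamond_distortion (E : Crest.AnalysisR.RealBanach)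
    (hE : ∀ t : ℝ, 0 < t → E.MaxMidpointModulusGE E.norm t (Real.sqrt (1 + t ^ 2 / 4) - 1))
    (k : ℕ) (f : Crest.AnalysisR.DiamondVertex k → E.X) (D : ℝ)
    (h : E.HasDistortionLE k f D) : 1 + (k : ℝ) / 4 ≤ D ^ 2 := by
  letI := E.normed
  letI := E.space
  obtain ⟨s, hs, hf⟩ := h
  have hX : ∀ t : ℝ, 0 < t → ∀ x : E.X, ‖x‖ = 1 → ∀ η : ℝ, 0 < η →
      ∃ S : Submodule ℝ E.X, IsClosed (S : Set E.X) ∧ FiniteDimensional ℝ (E.X ⧸ S) ∧
        ∀ y ∈ S, ‖y‖ = 1 →
          Real.sqrt (1 + t ^ 2 / 4) - 1 - η ≤ max ‖x + t • y‖ ‖x - t • y‖ - 1 := by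
    intro t ht x hx η hη
    obtain ⟨F, ⟨S, hSF, hcl, hfd⟩, hF⟩ := hE t ht x hx η hη
    refine ⟨S, hSF ▸ hcl, hfd, fun y hy hy1 => ?_⟩
    have hyF : y ∈ F := by rw [← hSF]; exact hy
    exact hF y hyF hy1
  have key := diamond_claim hX k f s hs (fun φ hφ u v => by
    have h1 := hφ.le_dist u v
    have h2 := (hf u v).1
    have h3 : s * |φ u - φ v| ≤ s * (diamondDist k u v : ℝ) :=
      mul_le_mul_of_nonneg_left h1 hs.le
    linarith)
  have hk0 : (0 : ℝ) ≤ k := Nat.cast_nonneg k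
  have hsq1 : 1 ≤ Real.sqrt (1 + (k : ℝ) / 4) := by
    rw [Real.one_le_sqrt]
    linarith
  have hmain : s * Real.sqrt (1 + (k : ℝ) / 4) ≤ D * s := by
    apply le_of_forall_pos_le_add
    intro ε hε
    obtain ⟨e, he⟩ := key (min ε (s / 2)) (lt_min hε (by linarith))
    have h1 : min ε (s / 2) ≤ ε := min_le_left _ _
    have h2 : min ε (s / 2) ≤ s / 2 := min_le_right _ _
    have h3 := (hf (diamondSrc k e) (diamondTgt k e)).2
    have h4 := dist_src_tgt_le_one k e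
    have hpos : 0 < ‖f (diamondSrc k e) - f (diamondTgt k e)‖ := by nlinarith
    have h5 : diamondDist k (diamondSrc k e) (diamondTgt k e) = 1 := by
      rcases Nat.le_one_iff_eq_zero_or_eq_one.mp h4 with h0 | h1'
      · rw [h0] at h3
        simp at h3
        rw [h3] at hpos
        simp at hpos
      · exact h1'
    rw [h5] at h3
    simp only [Nat.cast_one, mul_one] at h3
    linarith
  have hD : Real.sqrt (1 + (k : ℝ) / 4) ≤ D := by
    have hmain' : s * Real.sqrt (1 + (k : ℝ) / 4) ≤ s * D := by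
      rw [mul_comm s D]; exact hmain
    exact le_of_mul_le_mul_left hmain' hs
  have hD0 : 0 ≤ Real.sqrt (1 + (k : ℝ) / 4) := Real.sqrt_nonneg _
  calc 1 + (k : ℝ) / 4 = Real.sqrt (1 + (k : ℝ) / 4) ^ 2 := (Real.sq_sqrt (by positivity)).symm
    _ ≤ D ^ 2 := pow_le_pow_left₀ hD0 hD 2

end Crest.Agent.Helper7
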