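import Crest.Agent.Helper7.Proj

set_option autoImplicit false
set_option linter.unusedSectionVars false
set_option linter.unusedVariables false

open MeasureTheory
open scoped ENNReal NNReal

namespace Crest.Agent.Helper7

noncomputable abbrev P1 : E3 := !₂[1, 0, 0]
noncomputable abbrev P2 : E3 := !₂[-1, 0, 0]
noncomputable abbrev P3 : E3 := !₂[0, 1, Real.sqrt 2]
noncomputable abbrev P4 : E3 := !₂[0, -1, Real.sqrt 2]

/-- the standard regular tetrahedron -/
noncomputable abbrev K0 : Set E3 := convexHull ℝ {P1, P2, P3, P4}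

theorem sqrt2_sq : Real.sqrt 2 ^ 2 = 2 := Real.sq_sqrt (by norm_num)
theorem sqrt2_pos : 0 < Real.sqrt 2 := Real.sqrt_pos.mpr (by norm_num)

theorem K0_single (v : E3) (hv : ‖v‖ = 1) (A B C : E3)
    (hA : A ∈ ({P1, P2, P3, P4} : Set E3)) (hB : B ∈ ({P1, P2, P3, P4} : Set E3))
    (hC : C ∈ ({P1, P2, P3, P4} : Set E3)) :
    ENNReal.ofReal (|det3 (B - A) (C - A) v| / 2) ≤
      μHE[2] ((fun y : E3 => y - inner ℝ y v • v) '' K0) := by
  rw [← proj_triangle_area v A B C hv]
  apply measure_mono
  apply Set.image_mono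
  apply convexHull_mono
  rintro x (rfl | rfl | rfl)
  · exact hA
  · exact hB
  · exact hC

theorem K0_pair (v : E3) (hv : ‖v‖ = 1) (A B C D : E3)
    (hA : A ∈ ({P1, P2, P3, P4} : Set E3)) (hB : B ∈ ({P1, P2, P3, P4} : Set E3))
    (hC : C ∈ ({P1, P2, P3, P4} : Set E3)) (hD : D ∈ ({P1, P2, P3, P4} : Set E3))
    (hopp : det3 (B - A) (C - A) v * det3 (B - A) (D - A) v ≤ 0) :
    ENNReal.ofReal ((|det3 (B - A) (C - A) v| + |det3 (B - A) (D - A) v|) / 2) ≤
      μHE[2] ((fun y : E3 => y - inner ℝ y v • v) '' K0) := by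
  refine le_trans (proj_two_triangles_area v A B C D hv hopp) ?_
  apply measure_mono
  apply Set.union_subset
  · apply Set.image_mono
    apply convexHull_mono
    rintro x (rfl | rfl | rfl)
    · exact hA
    · exact hB
    · exact hC
  · apply Set.image_mono
    apply convexHull_mono
    rintro x (rfl | rfl | rfl)
    · exact hA
    · exact hB
    · exact hD

theorem det_F1 (v : E3) : det3 (P4 - P3) (P1 - P3) v = 2 * (Real.sqrt 2 * v 0 + v 2) := by
  unfold det3
  simp
  ring

theorem det_F2 (v : E3) : det3 (P4 - P3) (P2 - P3) v = 2 * (Real.sqrt 2 * v 0 - v 2) := by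
  unfold det3
  simp
  ring

theorem det_F3 (v : E3) : det3 (P2 - P1) (P3 - P1) v = 2 * (Real.sqrt 2 * v 1 - v 2) := by
  unfold det3
  simp
  ring

theorem det_F4 (v : E3) : det3 (P2 - P1) (P4 - P1) v = 2 * (Real.sqrt 2 * v 1 + v 2) := by
  unfold det3
  simp
  ring

theorem det_E13a (v : E3) : det3 (P3 - P1) (P4 - P1) v = 2 * (Real.sqrt 2 * v 0 + v 2) := by
  unfold det3
  simp
  ring

theorem det_E13b (v : E3) : det3 (P3 - P1) (P2 - P1) v = -(2 * (Real.sqrt 2 * v 1 - v 2)) := by
  unfold det3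
  simp
  ring

theorem det_E14a (v : E3) : det3 (P4 - P1) (P3 - P1) v = -(2 * (Real.sqrt 2 * v 0 + v 2)) := by
  unfold det3
  simp
  ring

theorem det_E14b (v : E3) : det3 (P4 - P1) (P2 - P1) v = -(2 * (Real.sqrt 2 * v 1 + v 2)) := by
  unfold det3
  simp
  ring

theorem le_abs_of_sq_le {s A : ℝ} (hs : 0 ≤ s) (h : s ^ 2 ≤ A ^ 2) : s ≤ |A| := by
  apply (sq_le_sq₀ hs (abs_nonneg A)).mp
  rw [sq_abs]; exact h

theorem le_of_sq_le_of_nonneg {a b : ℝ} (ha : 0 ≤ a) (hb : 0 ≤ b) (h : a ^ 2 ≤ b ^ 2) : a ≤ b :=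
  (sq_le_sq₀ ha hb).mp h

theorem minProjection_K0 (v : E3) (hv : ‖v‖ = 1) :
    ENNReal.ofReal (Real.sqrt 2) ≤ μHE[2] ((fun y : E3 => y - inner ℝ y v • v) '' K0) := by
  have hs2 : Real.sqrt 2 ^ 2 = 2 := sqrt2_sq
  have hs0 : 0 < Real.sqrt 2 := sqrt2_pos
  have hF1 := det_F1 v
  have hF2 := det_F2 v
  have hF3 := det_F3 v
  have hF4 := det_F4 v
  have hE13a := det_E13a v
  have hE13b := det_E13b v
  have hE14a := det_E14a v
  have hE14b := det_E14b v
  have hunit : v 0 ^ 2 + v 1 ^ 2 + v 2 ^ 2 = 1 := by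
    have := norm_sq_E3 v
    rw [hv] at this
    linarith
  have hP1 : P1 ∈ ({P1, P2, P3, P4} : Set E3) := by simp
  have hP2 : P2 ∈ ({P1, P2, P3, P4} : Set E3) := by simp
  have hP3 : P3 ∈ ({P1, P2, P3, P4} : Set E3) := by simp
  have hP4 : P4 ∈ ({P1, P2, P3, P4} : Set E3) := by simp
  have hS1 := K0_single v hv P3 P4 P1 hP3 hP4 hP1
  have hS2 := K0_single v hv P3 P4 P2 hP3 hP4 hP2
  have hS3 := K0_single v hv P1 P2 P3 hP1 hP2 hP3
  have hS4 := K0_single v hv P1 P2 P4 hP1 hP2 hP4
  have hPa := K0_pair v hv P3 P4 P1 P2 hP3 hP4 hP1 hP2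
  have hPb := K0_pair v hv P1 P3 P4 P2 hP1 hP3 hP4 hP2
  have hPc := K0_pair v hv P1 P4 P3 P2 hP1 hP4 hP3 hP2
  generalize μHE[2] ((fun y : E3 => y - inner ℝ y v • v) '' K0) = m at *
  generalize det3 (P4 - P3) (P1 - P3) v = D1 at *
  generalize det3 (P4 - P3) (P2 - P3) v = D2 at *
  generalize det3 (P2 - P1) (P3 - P1) v = D3 at *
  generalize det3 (P2 - P1) (P4 - P1) v = D4 at *
  generalize det3 (P3 - P1) (P4 - P1) v = D5 at *
  generalize det3 (P3 - P1) (P2 - P1) v = D6 at *
  generalize det3 (P4 - P1) (P3 - P1) v = D7 at *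
  generalize det3 (P4 - P1) (P2 - P1) v = D8 at *
  generalize v 0 = x at *
  generalize v 1 = y at *
  generalize v 2 = z at *
  subst hF1 hF2 hF3 hF4 hE13a hE13b hE14a hE14b
  clear hP1 hP2 hP3 hP4
  generalize Real.sqrt 2 = s at *
  have key : ∀ b : ℝ, s ≤ b → ENNReal.ofReal b ≤ m → ENNReal.ofReal s ≤ m :=
    fun b hb h => le_trans (ENNReal.ofReal_le_ofReal hb) h
  have single : ∀ t : ℝ, 0 ≤ 2 * t ^ 2 - z ^ 2 → 2 * t ^ 2 + z ^ 2 + 2 * z ^ 2 ≥ 2 →
      (0 ≤ t * z → s ≤ |s * t + z|) ∧ (t * z ≤ 0 → s ≤ |s * t - z|) := by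
    intro t ht h2
    constructor
    · intro htz
      have hw : 0 ≤ s * t * z := by
        have : s * t * z = s * (t * z) := by ring
        rw [this]; exact mul_nonneg hs0.le htz
      have e : (s * t * z) ^ 2 = s ^ 2 * (t ^ 2 * z ^ 2) := by ring
      have hw2 : z ^ 2 ≤ s * t * z := by
        apply le_of_sq_le_of_nonneg (sq_nonneg z) hw
        rw [e, hs2]
        nlinarith [mul_nonneg (sq_nonneg z) ht]
      apply le_abs_of_sq_le hs0.le
      have e2 : (s * t + z) ^ 2 = s ^ 2 * t ^ 2 + z ^ 2 + 2 * (s * t * z) := by ring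
      rw [e2, hs2]
      linarith
    · intro htz
      have hw : 0 ≤ -(s * t * z) := by
        have : -(s * t * z) = s * (-(t * z)) := by ring
        rw [this]; exact mul_nonneg hs0.le (by linarith)
      have e : (-(s * t * z)) ^ 2 = s ^ 2 * (t ^ 2 * z ^ 2) := by ring
      have hw2 : z ^ 2 ≤ -(s * t * z) := by
        apply le_of_sq_le_of_nonneg (sq_nonneg z) hw
        rw [e, hs2]
        nlinarith [mul_nonneg (sq_nonneg z) ht]
      apply le_abs_of_sq_le hs0.le
      have e2 : (s * t - z) ^ 2 = s ^ 2 * t ^ 2 + z ^ 2 + 2 * (-(s * t * z)) := by ring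
      rw [e2, hs2]
      linarith
  have abs2 : ∀ t : ℝ, |2 * t| = 2 * |t| := by
    intro t; rw [abs_mul]; norm_num
  have absn2 : ∀ t : ℝ, |-(2 * t)| = 2 * |t| := by
    intro t; rw [abs_neg, abs_mul]; norm_num
  by_cases hX : 2 * x ^ 2 ≤ z ^ 2
  · by_cases hY : 2 * y ^ 2 ≤ z ^ 2
    · -- case (i)
      have h := hPa (by nlinarith)
      refine key _ ?_ h
      have h1 : |2 * (s * x + z) - 2 * (s * x - z)| ≤ |2 * (s * x + z)| + |2 * (s * x - z)| :=
        abs_sub _ _
      have h2 : 2 * (s * x + z) - 2 * (s * x - z) = 2 * (2 * z) := by ring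
      rw [h2, abs2] at h1
      have h3 : s ≤ |2 * z| := by
        apply le_abs_of_sq_le hs0.le
        rw [hs2]; nlinarith
      linarith
    · -- case (iii)
      push Not at hY
      obtain ⟨hp, hn⟩ := single y (by linarith) (by nlinarith)
      rcases le_total (y * z) 0 with hyz | hyz
      · refine key _ ?_ hS3
        rw [abs2]
        have := hn hyz
        linarith
      · refine key _ ?_ hS4
        rw [abs2]
        have := hp hyz
        linarith
  · push Not at hX
    by_cases hY : 2 * y ^ 2 ≤ z ^ 2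
    · -- case (iv)
      obtain ⟨hp, hn⟩ := single x (by linarith) (by nlinarith)
      rcases le_total (x * z) 0 with hxz | hxz
      · refine key _ ?_ hS2
        rw [abs2]
        have := hn hxz
        linarith
      · refine key _ ?_ hS1
        rw [abs2]
        have := hp hxz
        linarith
    · -- case (ii)
      push Not at hY
      have hx2 : 0 < x ^ 2 := by nlinarith [sq_nonneg z]
      have hy2 : 0 < y ^ 2 := by nlinarith [sq_nonneg z]
      have hzx : |z * x| < s * x ^ 2 := by
        apply abs_lt_of_sq_lt_sq _ (by positivity)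
        have e : (s * x ^ 2) ^ 2 = s ^ 2 * (x ^ 2 * x ^ 2) := by ring
        have e' : (z * x) ^ 2 = z ^ 2 * x ^ 2 := by ring
        rw [e, e', hs2]
        nlinarith [mul_pos hx2 (sub_pos.mpr hX)]
      have hzy : |z * y| < s * y ^ 2 := by
        apply abs_lt_of_sq_lt_sq _ (by positivity)
        have e : (s * y ^ 2) ^ 2 = s ^ 2 * (y ^ 2 * y ^ 2) := by ring
        have e' : (z * y) ^ 2 = z ^ 2 * y ^ 2 := by ring
        rw [e, e', hs2]
        nlinarith [mul_pos hy2 (sub_pos.mpr hY)]
      have hAx : 0 < (s * x + z) * x := by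
        have := (abs_lt.mp hzx).1
        nlinarith
      have hBy : 0 < (s * y - z) * y := by
        have := (abs_lt.mp hzy).2
        nlinarith
      have hCy : 0 < (s * y + z) * y := by
        have := (abs_lt.mp hzy).1
        nlinarith
      have hxy0 : x * y ≠ 0 := by
        intro h0
        rcases mul_eq_zero.mp h0 with h | h
        · rw [h] at hx2; simp at hx2
        · rw [h] at hy2; simp at hy2
      have h4xy : (z ^ 2) ^ 2 ≤ (2 * (x * y)) ^ 2 := by
        have e : (2 * (x * y)) ^ 2 = (2 * x ^ 2) * (2 * y ^ 2) := by ring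
        rw [e]
        nlinarith [mul_nonneg (sub_nonneg.mpr hX.le) (sub_nonneg.mpr hY.le), sq_nonneg z,
          mul_nonneg (sq_nonneg z) (sub_nonneg.mpr hX.le),
          mul_nonneg (sq_nonneg z) (sub_nonneg.mpr hY.le)]
      rcases lt_or_gt_of_ne hxy0 with hxy | hxy
      · -- x y < 0 : edge P1 P4
        have hAC : (s * x + z) * (s * y + z) < 0 := by
          by_contra hcon
          push Not at hcon
          have h1 := mul_pos hAx hCy
          have h2 := mul_nonneg hcon (neg_nonneg.mpr hxy.le)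
          have e : (s * x + z) * x * ((s * y + z) * y) =
              -((s * x + z) * (s * y + z) * -(x * y)) := by ring
          rw [e] at h1
          linarith
        have h := hPc (by nlinarith)
        refine key _ ?_ h
        have hw2 : z ^ 2 ≤ -(2 * (x * y)) := by
          apply le_of_sq_le_of_nonneg (sq_nonneg z) (by linarith)
          have e : (-(2 * (x * y))) ^ 2 = (2 * (x * y)) ^ 2 := by ring
          rw [e]; exact h4xy
        rw [absn2, absn2]
        have e3 : |s * x + z| * |s * y + z| = -((s * x + z) * (s * y + z)) := by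
          rw [← abs_mul, abs_of_neg hAC]
        have h3 : s ≤ |s * x + z| + |s * y + z| := by
          apply le_of_sq_le_of_nonneg hs0.le (by positivity)
          have e4 : (|s * x + z| + |s * y + z|) ^ 2 =
              (s * x + z) ^ 2 + (s * y + z) ^ 2 + 2 * (|s * x + z| * |s * y + z|) := by
            rw [add_sq, sq_abs, sq_abs]; ring
          have e5 : (s * x + z) ^ 2 + (s * y + z) ^ 2 + 2 * -((s * x + z) * (s * y + z)) =
              s ^ 2 * (x ^ 2 + y ^ 2 - 2 * (x * y)) := by ring
          rw [e4, e3, e5, hs2]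
          nlinarith
        linarith
      · -- x y > 0 : edge P1 P3
        have hAB : 0 < (s * x + z) * (s * y - z) := by
          by_contra hcon
          push Not at hcon
          have h1 := mul_pos hAx hBy
          have h2 := mul_nonneg (neg_nonneg.mpr hcon) hxy.le
          have e : (s * x + z) * x * ((s * y - z) * y) =
              -(-((s * x + z) * (s * y - z)) * (x * y)) := by ring
          rw [e] at h1
          linarith
        have h := hPb (by nlinarith)
        refine key _ ?_ h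
        have hw2 : z ^ 2 ≤ 2 * (x * y) :=
          le_of_sq_le_of_nonneg (sq_nonneg z) (by linarith) h4xy
        rw [abs2, absn2]
        have e3 : |s * x + z| * |s * y - z| = (s * x + z) * (s * y - z) := by
          rw [← abs_mul, abs_of_pos hAB]
        have h3 : s ≤ |s * x + z| + |s * y - z| := by
          apply le_of_sq_le_of_nonneg hs0.le (by positivity)
          have e4 : (|s * x + z| + |s * y - z|) ^ 2 =
              (s * x + z) ^ 2 + (s * y - z) ^ 2 + 2 * (|s * x + z| * |s * y - z|) := by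
            rw [add_sq, sq_abs, sq_abs]; ring
          have e5 : (s * x + z) ^ 2 + (s * y - z) ^ 2 + 2 * ((s * x + z) * (s * y - z)) =
              s ^ 2 * (x ^ 2 + y ^ 2 + 2 * (x * y)) := by ring
          rw [e4, e3, e5, hs2]
          nlinarith
        linarith

theorem projection_lt_top (v : E3) (hv : ‖v‖ = 1) (K : Set E3) (hK : IsCompact K) :
    μHE[2] ((fun y : E3 => y - inner ℝ y v • v) '' K) < ⊤ := by
  apply muHE_plane_bounded_lt_top v hv
  · have hc : Continuous (fun y : E3 => y - inner ℝ y v • v) := by fun_prop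
    exact (hK.image hc).isBounded
  · rintro _ ⟨y, -, rfl⟩
    exact inner_proj_self v y hv

theorem isCompact_K0 : IsCompact K0 := Set.Finite.isCompact_convexHull (𝕜 := ℝ) (Set.toFinite _)

theorem projection_K0_lt_top (v : E3) (hv : ‖v‖ = 1) :
    μHE[2] ((fun y : E3 => y - inner ℝ y v • v) '' K0) < ⊤ :=
  projection_lt_top v hv K0 isCompact_K0

theorem norm_P1 : ‖P1‖ = 1 := by
  have h := norm_sq_E3 P1
  have h2 : ‖P1‖ ^ 2 = 1 := by rw [h]; simp
  have h0 := norm_nonneg P1
  nlinarith

theorem projection_K0_P1 :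
    μHE[2] ((fun y : E3 => y - inner ℝ y P1 • P1) '' K0) = ENNReal.ofReal (Real.sqrt 2) := by
  have h1 : projL P1 P1 = 0 := by
    rw [projL_apply, real_inner_self_eq_norm_sq, norm_P1]; simp
  have h2 : projL P1 P2 = 0 := by
    ext i; fin_cases i <;> simp [projL_apply, inner_E3]
  have h3 : projL P1 P3 = P3 := by
    ext i; fin_cases i <;> simp [projL_apply, inner_E3]
  have h4 : projL P1 P4 = P4 := by
    ext i; fin_cases i <;> simp [projL_apply, inner_E3]
  rw [projL_image_convexHull, Set.image_insert_eq, Set.image_insert_eq, Set.image_insert_eq,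
    Set.image_singleton, h1, h2, h3, h4, Set.insert_eq_of_mem (Set.mem_insert _ _), muHE_triangle]
  congr 1
  have hg : gram (P3 - 0) (P4 - 0) = 8 := by
    unfold gram
    rw [sub_zero, sub_zero, norm_sq_E3, norm_sq_E3, inner_E3]
    simp
    have := sqrt2_sq
    nlinarith [Real.mul_self_sqrt (show (0 : ℝ) ≤ 2 by norm_num)]
  rw [hg, show (8 : ℝ) = 2 ^ 2 * 2 by norm_num, Real.sqrt_mul (by positivity),
    Real.sqrt_sq (by norm_num)]
  ring

end Crest.Agent.Helper7
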