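import Crest.Agent.Helper7.Area

set_option autoImplicit false
set_option linter.unusedSectionVars false
set_option linter.unusedVariables false

open MeasureTheory
open scoped ENNReal NNReal

namespace Crest.Agent.Helper7

/-- orthogonal projection onto the plane orthogonal to `v`, as a linear map -/
noncomputable def projL (v : E3) : E3 →ₗ[ℝ] E3 where
  toFun y := y - inner ℝ y v • v
  map_add' x y := by rw [inner_add_left, add_smul]; abel
  map_smul' c x := by
    simp only [RingHom.id_apply]
    rw [real_inner_smul_left, smul_sub, smul_smul]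

theorem projL_apply (v y : E3) : projL v y = y - inner ℝ y v • v := rfl

theorem projL_coe (v : E3) : (fun y : E3 => y - inner ℝ y v • v) = projL v := rfl

theorem projL_image_convexHull (v : E3) (s : Set E3) :
    (fun y : E3 => y - inner ℝ y v • v) '' convexHull ℝ s = convexHull ℝ (projL v '' s) := by
  rw [projL_coe]
  exact (projL v).image_convexHull s

theorem projL_image_triple (v P Q R : E3) :
    (fun y : E3 => y - inner ℝ y v • v) '' convexHull ℝ {P, Q, R} =
      convexHull ℝ {projL v P, projL v Q, projL v R} := by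
  rw [projL_image_convexHull, Set.image_insert_eq, Set.image_insert_eq, Set.image_singleton]

theorem inner_projL (v y : E3) (hv : ‖v‖ = 1) : inner ℝ (projL v y) v = 0 :=
  inner_proj_self v y hv

/-- area of a projected triangle -/
theorem proj_triangle_area (v P Q R : E3) (hv : ‖v‖ = 1) :
    μHE[2] ((fun y : E3 => y - inner ℝ y v • v) '' convexHull ℝ {P, Q, R}) =
      ENNReal.ofReal (|det3 (Q - P) (R - P) v| / 2) := by
  rw [projL_image_triple, muHE_triangle, ← map_sub, ← map_sub, projL_apply, projL_apply,
    gram_proj v _ _ hv, Real.sqrt_sq_eq_abs]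

theorem det3_self_left (a c : E3) : det3 a a c = 0 := by
  unfold det3; ring

theorem det3_projL_mid (v a b : E3) : det3 a (projL v b) v = det3 a b v := by
  rw [projL_apply]
  unfold det3
  simp only [PiLp.sub_apply, PiLp.smul_apply, smul_eq_mul]
  ring

theorem det3_add_mid (a b c d : E3) : det3 a (b + c) d = det3 a b d + det3 a c d := by
  unfold det3
  simp only [PiLp.add_apply]
  ring

theorem det3_smul_mid (a b d : E3) (t : ℝ) : det3 a (t • b) d = t * det3 a b d := by
  unfold det3
  simp only [PiLp.smul_apply, smul_eq_mul]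
  ring

/-- two projected triangles sharing an edge, on opposite sides of it -/
theorem proj_two_triangles_area (v P Q R S : E3) (hv : ‖v‖ = 1)
    (hopp : det3 (Q - P) (R - P) v * det3 (Q - P) (S - P) v ≤ 0) :
    ENNReal.ofReal ((|det3 (Q - P) (R - P) v| + |det3 (Q - P) (S - P) v|) / 2) ≤
      μHE[2] ((fun y : E3 => y - inner ℝ y v • v) '' convexHull ℝ {P, Q, R} ∪
        (fun y : E3 => y - inner ℝ y v • v) '' convexHull ℝ {P, Q, S}) := by
  set d₁ := det3 (Q - P) (R - P) v with hd₁
  set d₂ := det3 (Q - P) (S - P) v with hd₂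
  have hA₁ := proj_triangle_area v P Q R hv
  have hA₂ := proj_triangle_area v P Q S hv
  rw [← hd₁] at hA₁
  rw [← hd₂] at hA₂
  by_cases h1 : d₁ = 0
  · rw [h1, abs_zero, zero_add, ← hA₂]
    exact measure_mono Set.subset_union_right
  by_cases h2 : d₂ = 0
  · rw [h2, abs_zero, add_zero, ← hA₁]
    exact measure_mono Set.subset_union_left
  have hlt : d₁ * d₂ < 0 := lt_of_le_of_ne hopp (mul_ne_zero h1 h2)
  -- intersection is contained in a segment
  have hinter : (fun y : E3 => y - inner ℝ y v • v) '' convexHull ℝ {P, Q, R} ∩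
      (fun y : E3 => y - inner ℝ y v • v) '' convexHull ℝ {P, Q, S} ⊆
      segment ℝ (projL v P) (projL v Q) := by
    rw [projL_image_triple, projL_image_triple, convexHull_triple_eq, convexHull_triple_eq]
    rintro x ⟨⟨_, ⟨y, ⟨hy0, hy1, hy2⟩, rfl⟩, rfl⟩, ⟨_, ⟨z, ⟨hz0, hz1, hz2⟩, rfl⟩, hxz⟩⟩
    simp only [lin2_apply] at hxz ⊢
    have hφ : ∀ w : E3, det3 (Q - P) (projL v w - projL v P) v = det3 (Q - P) (w - P) v := by
      intro w
      rw [← map_sub, det3_projL_mid]
    have e1 : det3 (Q - P) (y 0 • (projL v Q - projL v P) + y 1 • (projL v R - projL v P)) v =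
        y 1 * d₁ := by
      rw [det3_add_mid, det3_smul_mid, det3_smul_mid, hφ, hφ, det3_self_left]; ring
    have e2 : det3 (Q - P) (z 0 • (projL v Q - projL v P) + z 1 • (projL v S - projL v P)) v =
        z 1 * d₂ := by
      rw [det3_add_mid, det3_smul_mid, det3_smul_mid, hφ, hφ, det3_self_left]; ring
    have e3 : z 0 • (projL v Q - projL v P) + z 1 • (projL v S - projL v P) =
        y 0 • (projL v Q - projL v P) + y 1 • (projL v R - projL v P) := by
      have := hxz
      exact add_left_cancel this
    rw [e3, e1] at e2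
    -- y 1 * d₁ = z 1 * d₂
    have hy1z : y 1 = 0 := by
      by_contra hne
      have hy1pos : 0 < y 1 := lt_of_le_of_ne hy1 (Ne.symm hne)
      have h3 : y 1 * d₁ * d₁ = z 1 * (d₁ * d₂) := by rw [e2]; ring
      have h4 : 0 < y 1 * d₁ * d₁ := by
        have : 0 < d₁ * d₁ := mul_self_pos.mpr h1
        nlinarith
      have h5 : z 1 * (d₁ * d₂) ≤ 0 := mul_nonpos_of_nonneg_of_nonpos hz1 hlt.le
      linarith
    rw [hy1z, zero_smul, add_zero]
    rw [segment_eq_image_lineMap]
    refine ⟨y 0, ⟨hy0, by linarith⟩, ?_⟩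
    simp only [AffineMap.lineMap_apply, vsub_eq_sub, vadd_eq_add]
    abel
  have hnull : μHE[2] ((fun y : E3 => y - inner ℝ y v • v) '' convexHull ℝ {P, Q, R} ∩
      (fun y : E3 => y - inner ℝ y v • v) '' convexHull ℝ {P, Q, S}) = 0 :=
    measure_mono_null hinter (muHE_segment_null _ _)
  have hmeas : MeasurableSet ((fun y : E3 => y - inner ℝ y v • v) '' convexHull ℝ {P, Q, S}) := by
    rw [projL_image_triple]
    exact (Set.Finite.isClosed_convexHull (𝕜 := ℝ) (Set.toFinite _)).measurableSet
  have hadd := measure_union_add_inter (μ := (μHE[2] : Measure E3))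
    ((fun y : E3 => y - inner ℝ y v • v) '' convexHull ℝ {P, Q, R}) hmeas
  rw [hnull, add_zero, hA₁, hA₂] at hadd
  rw [hadd, ← ENNReal.ofReal_add (by positivity) (by positivity)]
  apply le_of_eq
  congr 1
  ring

end Crest.Agent.Helper7
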